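import Vale.Agent.P048.Reduction

/-!
# P048: the chord lemma

A cycle of length `L ≥ 2a+2` in a graph without independent set of size `a+1` has a chord between two
of its first `2a+1` vertices; the shortcut is a cycle of length between `L-2a+1` and `L-1`.
-/

namespace Vale.Agent.P048

open SimpleGraph

section

variable {V : Type} {G : SimpleGraph V}

/-- the entries in even positions -/
def evens {α : Type*} : List α → List α
  | [] => []
  | [x] => [x]
  | x :: _ :: t => x :: evens t

lemma evens_sublist {α : Type*} : ∀ l : List α, (evens l).Sublist l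
  | [] => List.Sublist.refl _
  | [_] => List.Sublist.refl _
  | x :: y :: t => ((evens_sublist t).cons y).cons_cons x

lemma length_evens {α : Type*} : ∀ l : List α, (evens l).length = (l.length + 1) / 2
  | [] => by simp [evens]
  | [_] => by simp [evens]
  | x :: y :: t => by
    simp only [evens, List.length_cons, length_evens t]
    omega

lemma evens_split {α : Type*} {u v : α} (huv : u ≠ v) :
    ∀ T : List α, u ∈ evens T → v ∈ evens T →
      ∃ A M B, M ≠ [] ∧ (T = A ++ u :: (M ++ v :: B) ∨ T = A ++ v :: (M ++ u :: B))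
  | [], hu, _ => by simp [evens] at hu
  | [x], hu, hv => by
    simp only [evens, List.mem_singleton] at hu hv
    exact absurd (hu.trans hv.symm) huv
  | x :: y :: t, hu, hv => by
    simp only [evens, List.mem_cons] at hu hv
    rcases hu with rfl | hu
    · rcases hv with rfl | hv
      · exact absurd rfl huv
      · obtain ⟨t1, t2, rfl⟩ := List.append_of_mem ((evens_sublist t).subset hv)
        exact ⟨[], y :: t1, t2, by simp, Or.inl (by simp)⟩
    · rcases hv with rfl | hv
      · obtain ⟨t1, t2, rfl⟩ := List.append_of_mem ((evens_sublist t).subset hu)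
        exact ⟨[], y :: t1, t2, by simp, Or.inr (by simp)⟩
      · obtain ⟨A, M, B, hM, h | h⟩ := evens_split huv t hu hv
        · exact ⟨x :: y :: A, M, B, hM, Or.inl (by simp [h])⟩
        · exact ⟨x :: y :: A, M, B, hM, Or.inr (by simp [h])⟩

/-- shortcut of a cycle along a chord -/
lemma cycL_shortcut {A M B : List V} {x y : V} (h : CycL G (A ++ x :: (M ++ y :: B)))
    (hxy : G.Adj x y) (h3 : 3 ≤ (A ++ x :: y :: B).length) : CycL G (A ++ x :: y :: B) := by
  obtain ⟨_, hnd, hch, hcl⟩ := h
  refine ⟨h3, ?_, ?_, ?_⟩
  · refine hnd.sublist ?_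
    exact (List.Sublist.refl A).append ((List.sublist_append_right M (y :: B)).cons_cons x)
  · rw [List.isChain_split] at hch ⊢
    refine ⟨hch.1, ?_⟩
    have h2 : ((x :: M) ++ y :: B).IsChain G.Adj := by simpa using hch.2
    rw [List.isChain_split] at h2
    rw [List.isChain_cons_cons]
    exact ⟨hxy, h2.2⟩
  · have e1 : (A ++ x :: y :: B).head? = (A ++ x :: (M ++ y :: B)).head? := by
      cases A <;> simp
    have e2 : (A ++ x :: y :: B).getLast? = (A ++ x :: (M ++ y :: B)).getLast? := by
      have a1 : A ++ x :: y :: B = (A ++ [x]) ++ y :: B := by simp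
      have a2 : A ++ x :: (M ++ y :: B) = (A ++ x :: M) ++ y :: B := by simp
      rw [a1, a2, List.getLast?_append_of_ne_nil (A ++ [x]) (by simp),
        List.getLast?_append_of_ne_nil (A ++ x :: M) (by simp)]
    rw [e1, e2]
    exact hcl

end

/-- **Bounded shortening.** -/
theorem shorten_list {V : Type} {G : SimpleGraph V} {a : ℕ} (hα : ¬ HasIndep G (a + 1))
    (q : List V) (hq : CycL G q) (hL : 2 * a + 2 ≤ q.length) :
    ∃ q', CycL G q' ∧ q.length + 1 ≤ q'.length + 2 * a ∧ q'.length < q.length := by
  classical
  obtain ⟨T, B0, hTB, hTl⟩ : ∃ T B0 : List V, T ++ B0 = q ∧ T.length = 2 * a + 1 :=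
    ⟨q.take (2 * a + 1), q.drop (2 * a + 1), List.take_append_drop _ _, by simp; omega⟩
  subst hTB
  have hTn : T.Nodup := hq.2.1.of_append_left
  have hen : (evens T).Nodup := hTn.sublist (evens_sublist T)
  have hcard : (evens T).toFinset.card = a + 1 := by
    rw [List.toFinset_card_of_nodup hen, length_evens, hTl]
    omega
  obtain ⟨u, hu, v, hv, huv⟩ := exists_adj_of_not_hasIndep hα _ hcard
  rw [List.mem_toFinset] at hu hv
  simp only [List.length_append] at hL
  obtain ⟨A, M, B, hM, h | h⟩ := evens_split huv.ne T hu hv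
  · subst h
    have hMl : 1 ≤ M.length := List.length_pos_iff.2 hM
    simp only [List.length_append, List.length_cons] at hTl hL
    have hq' : CycL G (A ++ u :: (M ++ v :: (B ++ B0))) := by simpa using hq
    refine ⟨A ++ u :: v :: (B ++ B0), cycL_shortcut hq' huv ?_, ?_, ?_⟩ <;>
      simp only [List.length_append, List.length_cons] <;> omega
  · subst h
    have hMl : 1 ≤ M.length := List.length_pos_iff.2 hM
    simp only [List.length_append, List.length_cons] at hTl hL
    have hq' : CycL G (A ++ v :: (M ++ u :: (B ++ B0))) := by simpa using hq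
    refine ⟨A ++ v :: u :: (B ++ B0), cycL_shortcut hq' huv.symm ?_, ?_, ?_⟩ <;>
      simp only [List.length_append, List.length_cons] <;> omega

/-- **Chord lemma.** -/
theorem chord_shortens (a L : ℕ) (h1 : 4 * a ≤ L + 1) (h2 : 2 * a + 2 ≤ L) :
    ShortensAt a L (2 * a) := by
  intro V G hc hα
  obtain ⟨q, hq, hl⟩ := hasCycle_iff_cycL.1 hc
  obtain ⟨q', hq', h3, h4⟩ := shorten_list hα q hq (by omega)
  exact ⟨q'.length, by omega, by omega, hasCycle_of_cycL hq'⟩

end Vale.Agent.P048
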