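import Vale.Agent.P048.PSLDef

/-!
# P048: cycles as lists versus cycles as closed walks
-/

namespace Vale.Agent.P048

open SimpleGraph

universe u

variable {V : Type u} {G : SimpleGraph V}

/-- a chain for the adjacency relation is the support of a walk -/
lemma exists_walk_of_isChain (x : V) (l : List V) (h : (x :: l).IsChain G.Adj) :
    ∃ (y : V) (p : G.Walk x y), p.support = x :: l ∧ (x :: l).getLast? = some y := by
  induction l generalizing x with
  | nil => exact ⟨x, Walk.nil, rfl, rfl⟩
  | cons z t ih =>
    rw [List.isChain_cons_cons] at h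
    obtain ⟨y, p, hp, hy⟩ := ih z h.2
    refine ⟨y, Walk.cons h.1 p, ?_, ?_⟩
    · rw [Walk.support_cons, hp]
    · rw [List.getLast?_cons_cons]; exact hy

theorem hasCycle_of_cycL {q : List V} (h : CycL G q) : HasCycle G q.length := by
  obtain ⟨h3, hnd, hch, hcl⟩ := h
  cases q with
  | nil => simp at h3
  | cons x l =>
    obtain ⟨y, p, hp, hy⟩ := exists_walk_of_isChain x l hch
    have hadj : G.Adj y x := hcl x (by simp) y (by rw [hy]; simp)
    have hlen : p.length + 1 = (x :: l).length := by
      rw [← hp, Walk.length_support]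
    have hpath : p.IsPath := Walk.IsPath.mk' (by rw [hp]; exact hnd)
    refine ⟨y, Walk.cons hadj p, ?_, ?_⟩
    · rw [Walk.isCycle_iff_isPath_tail_and_le_length]
      refine ⟨?_, ?_⟩
      · simpa using hpath
      · rw [Walk.length_cons, hlen]; exact h3
    · rw [Walk.length_cons, hlen]

theorem exists_cycL_of_hasCycle {m : ℕ} (h : HasCycle G m) :
    ∃ q : List V, CycL G q ∧ q.length = m := by
  obtain ⟨v, w, hw, hl⟩ := h
  have h3 := hw.three_le_length
  cases w with
  | nil => simp at h3
  | @cons _ u _ hadj p =>
    refine ⟨p.support, ⟨?_, ?_, ?_, ?_⟩, ?_⟩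
    · rw [Walk.length_support]; rw [Walk.length_cons] at h3; exact h3
    · have := hw.support_nodup
      simpa using this
    · exact p.isChain_adj_support
    · intro x hx y hy
      have hx' : x = u := by
        rw [← Walk.cons_tail_support p] at hx
        simp only [List.head?_cons, Option.mem_def, Option.some.injEq] at hx
        exact hx.symm
      have hy' : y = v := by
        rw [List.getLast?_eq_some_getLast (Walk.support_ne_nil p), Walk.getLast_support] at hy
        simpa using hy.symm
      rw [hx', hy']; exact hadj
    · rw [Walk.length_support, ← hl, Walk.length_cons]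

theorem hasCycle_iff_cycL {m : ℕ} : HasCycle G m ↔ ∃ q : List V, CycL G q ∧ q.length = m :=
  ⟨exists_cycL_of_hasCycle, fun ⟨_, hq, hm⟩ => hm ▸ hasCycle_of_cycL hq⟩

end Vale.Agent.P048
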