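import Mathlib

/-!
# P048: cycle-complete Ramsey numbers, basic definitions
-/

namespace Vale.Agent.P048

universe u

variable {V : Type u}

/-- `G` contains a cycle with exactly `m` edges (equivalently `m` vertices). -/
def HasCycle (G : SimpleGraph V) (m : ℕ) : Prop :=
  ∃ (v : V) (w : G.Walk v v), w.IsCycle ∧ w.length = m

/-- `G` contains an independent set with exactly `n` vertices. -/
def HasIndep (G : SimpleGraph V) (n : ℕ) : Prop :=
  ∃ s : Finset V, G.IsNIndepSet n s

/-- Upper bound property: every graph with at least `(m-1)(n-1)+1` vertices has a `C_m`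
or an independent `n`-set. -/
def Upper (m n : ℕ) : Prop :=
  ∀ (V : Type) [Fintype V] (G : SimpleGraph V),
    (m - 1) * (n - 1) + 1 ≤ Fintype.card V → HasCycle G m ∨ HasIndep G n

/-- Minimum-degree hypothesis `H5(m, n0)`: minimum degree at least `m-1` and no independent
`n0`-set force a `C_m`. -/
def MinDegForces (m n0 : ℕ) : Prop :=
  ∀ (V : Type) [Fintype V] (G : SimpleGraph V),
    (∀ v : V, m - 1 ≤ (G.neighborSet v).ncard) → ¬ HasIndep G n0 → HasCycle G m

end Vale.Agent.P048
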