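import Vale.Agent.P048.Defs

/-!
# P048: the lower bound construction and the `IsLeast` glue
-/

namespace Vale.Agent.P048

/-- disjoint cliques: `i ~ j` iff `i ≠ j` and `i / k = j / k` -/
def blockGraph (N k : ℕ) : SimpleGraph (Fin N) where
  Adj i j := i ≠ j ∧ i.val / k = j.val / k
  symm := ⟨fun _ _ h => ⟨h.1.symm, h.2.symm⟩⟩
  loopless := ⟨fun _ h => h.1 rfl⟩

lemma blockGraph_adj {N k : ℕ} {i j : Fin N} :
    (blockGraph N k).Adj i j ↔ i ≠ j ∧ i.val / k = j.val / k := Iff.rfl

lemma blockGraph_walk {N k : ℕ} {u v : Fin N} (w : (blockGraph N k).Walk u v) :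
    ∀ x ∈ w.support, x.val / k = u.val / k := by
  induction w with
  | nil => intro x hx; simp at hx; rw [hx]
  | cons h p ih =>
    intro x hx
    rw [SimpleGraph.Walk.support_cons, List.mem_cons] at hx
    rcases hx with rfl | hx
    · rfl
    · rw [ih x hx]; exact (blockGraph_adj.1 h).2.symm

lemma blockGraph_no_cycle {N m : ℕ} (hm : 2 ≤ m) : ¬ HasCycle (blockGraph N (m - 1)) m := by
  rintro ⟨v, w, hw, hlen⟩
  -- the `m` vertices of `w.support.tail` are distinct and lie in one block
  have hnd : w.support.tail.Nodup := hw.support_nodup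
  have hlen' : w.support.tail.length = m := by
    rw [List.length_tail, SimpleGraph.Walk.length_support, hlen]; simp
  have hk : 0 < m - 1 := by omega
  set q := v.val / (m - 1) with hq
  have hmem : ∀ x ∈ w.support.tail, x.val ∈ Finset.Ico (q * (m - 1)) (q * (m - 1) + (m - 1)) := by
    intro x hx
    have h1 := blockGraph_walk w x (List.mem_of_mem_tail hx)
    rw [Finset.mem_Ico]
    have h2 : x.val / (m - 1) = q := h1
    constructor
    · rw [← h2]; exact Nat.div_mul_le_self _ _
    · rw [← h2]
      have := Nat.lt_div_mul_add (a := x.val) hk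
      exact this
  have hcard : (w.support.tail.map (fun x : Fin N => x.val)).toFinset.card = m := by
    rw [List.toFinset_card_of_nodup, List.length_map, hlen']
    exact hnd.map Fin.val_injective
  have hsub : (w.support.tail.map (fun x : Fin N => x.val)).toFinset ⊆
      Finset.Ico (q * (m - 1)) (q * (m - 1) + (m - 1)) := by
    intro y hy
    rw [List.mem_toFinset, List.mem_map] at hy
    obtain ⟨x, hx, rfl⟩ := hy
    exact hmem x hx
  have := Finset.card_le_card hsub
  rw [hcard, Nat.card_Ico] at this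
  omega

lemma blockGraph_no_indep {N m n : ℕ} (hm : 2 ≤ m) (hn : 1 ≤ n) (hN : N ≤ (m - 1) * (n - 1)) :
    ¬ HasIndep (blockGraph N (m - 1)) n := by
  rintro ⟨s, hs⟩
  have hk : 0 < m - 1 := by omega
  have hcard : s.card = n := hs.card_eq
  have hind := hs.isIndepSet
  have hmaps : ∀ x ∈ s, x.val / (m - 1) ∈ Finset.range (n - 1) := by
    intro x _
    rw [Finset.mem_range, Nat.div_lt_iff_lt_mul hk]
    calc x.val < N := x.isLt
      _ ≤ (m - 1) * (n - 1) := hN
      _ = (n - 1) * (m - 1) := Nat.mul_comm _ _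
  have hlt : (Finset.range (n - 1)).card < s.card := by
    rw [Finset.card_range, hcard]; omega
  obtain ⟨x, hx, y, hy, hxy, hf⟩ := Finset.exists_ne_map_eq_of_card_lt_of_maps_to hlt hmaps
  exact hind hx hy hxy (blockGraph_adj.2 ⟨hxy, hf⟩)

/-- Lower bound construction: on `N ≤ (m-1)(n-1)` vertices there is a graph with no cycle of length
`m` and no independent `n`-set. -/
theorem lower {m n N : ℕ} (hm : 2 ≤ m) (hn : 1 ≤ n) (hN : N ≤ (m - 1) * (n - 1)) :
    ∃ G : SimpleGraph (Fin N), ¬ HasCycle G m ∧ ¬ HasIndep G n :=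
  ⟨blockGraph N (m - 1), blockGraph_no_cycle hm, blockGraph_no_indep hm hn hN⟩

/-- `R` is the Ramsey number `R(C_m, K_n)`: the least `N` such that every graph on `N` vertices
contains a cycle of length exactly `m` or an independent set of `n` vertices. -/
def IsRamsey (m n R : ℕ) : Prop :=
  IsLeast {N : ℕ | ∀ G : SimpleGraph (Fin N), HasCycle G m ∨ HasIndep G n} R

theorem isRamsey_of_upper {m n : ℕ} (hm : 2 ≤ m) (hn : 1 ≤ n) (h : Upper m n) :
    IsRamsey m n ((m - 1) * (n - 1) + 1) := by
  constructor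
  · intro G
    exact h (Fin ((m - 1) * (n - 1) + 1)) G (by simp)
  · intro N hN
    by_contra hlt
    obtain ⟨G, h1, h2⟩ := lower (N := N) hm hn (by omega)
    rcases hN G with h3 | h3
    · exact h1 h3
    · exact h2 h3

end Vale.Agent.P048
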