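import Vale.Agent.P048.Chord
import Vale.Agent.P048.Lower

/-!
# P048: assembling the reduction, the chord lemma and the finite statements
-/

namespace Vale.Agent.P048

/-- The upper bound for all `n ≤ A + 1`, `m ≥ 2 n`, from the finitely many finite statements
`PSL a` (`a ≤ A`) and `DShort a L (2 a)` (`a ≤ A`, `2 a + 3 ≤ L ≤ 4 a - 2`). -/
theorem upper_of_certs (A : ℕ) (hP : ∀ a, 1 ≤ a → a ≤ A → PSL a)
    (hD : ∀ a L, 1 ≤ a → a ≤ A → 2 * a + 3 ≤ L → L + 2 ≤ 4 * a → DShort a L (2 * a)) :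
    ∀ n, 1 ≤ n → n ≤ A + 1 → ∀ m, 2 * n ≤ m → Upper m n :=
  upper_of_finite A hP (fun a h1 h2 L hL => by
    by_cases h : 4 * a ≤ L + 1
    · exact Or.inl (chord_shortens a L h (by omega))
    · exact Or.inr ⟨by omega, hD a L h1 h2 hL (by omega)⟩)

/-- The Ramsey number for all `n ≤ A + 1`, `m ≥ 2 n`, from the finite statements. -/
theorem isRamsey_of_certs (A : ℕ) (hP : ∀ a, 1 ≤ a → a ≤ A → PSL a)
    (hD : ∀ a L, 1 ≤ a → a ≤ A → 2 * a + 3 ≤ L → L + 2 ≤ 4 * a → DShort a L (2 * a))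
    (m n : ℕ) (hn : 1 ≤ n) (hnA : n ≤ A + 1) (hm : 2 * n ≤ m) :
    IsRamsey m n ((m - 1) * (n - 1) + 1) :=
  isRamsey_of_upper (by omega) hn (upper_of_certs A hP hD n hn hnA m hm)

end Vale.Agent.P048
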