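import Vale.Agent.P048.LexKey
import Vale.Agent.P048.Sat.TurboGraph

/-!
# P048: glue between the checker's `Sat.Model` + `Sat.Turbo.LexNb` and the statement `PSL a`
-/

namespace Vale.Agent.P048

open Vale.Agent.P048.Sat

/-- `sp` is a checker problem for `PSL a`: path `0, …, 2a-1`, the vertices from `jl ≥ 2a` on are
independent, forbidden: paths from `0` to `2a-1` on exactly `2a+1` vertices -/
structure IsPSLSpec (a : ℕ) (sp : Spec) : Prop where
  hN : sp.N = 3 * a
  ha : sp.a = a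
  hl : sp.l = 2 * a
  hcf : sp.cf = false
  hjl : 2 * a ≤ sp.jl
  hcyc : sp.cyc = false
  hL0 : sp.L0 = 2 * a + 1
  hL1 : sp.L1 = 2 * a + 1
  hx : sp.x = 0
  hy : sp.y = 2 * a - 1

/-- **Glue.**  If the checker problem `sp` for `PSL a` has no lexicographically sorted model, then
`PSL a` holds. -/
theorem psl_of_noModelLex (a : ℕ) (ha : 1 ≤ a) (sp : Spec) (hsp : IsPSLSpec a sp)
    (h : ∀ A : ℕ → ℕ → Prop, Model sp A → Turbo.LexNb sp A → False) : PSL a := by
  refine psl_of_lex a ha (fun A hA hs => ?_)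
  have hlex : Turbo.LexNb sp A := by
    intro j h1 h2 i hi hAi
    exact hs j (le_trans hsp.hjl h1) (by rw [← hsp.hN]; exact h2) i (by rw [← hsp.hl]; exact hi) hAi
  refine h A ⟨hA.symm, ?_, ?_, ?_, ?_, ?_, ?_, ?_⟩ hlex
  · intro u hu
    exact hA.path u (by rw [← hsp.hl]; exact hu)
  · intro hcf
    rw [hsp.hcf] at hcf
    exact absurd hcf (by decide)
  · intro u v hu huv _
    have hu' : 2 * a ≤ u := le_trans hsp.hjl hu
    exact hA.indep u v hu' (by omega)
  · intro s hs1 hs2 hs3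
    exact hA.alpha s hs1 (by rw [hs2, hsp.ha]) (fun z hz => by rw [← hsp.hN]; exact hs3 z hz)
  · intro _ q hnd hb h0 h1 hch hx hy
    rw [hsp.hL0] at h0
    rw [hsp.hL1] at h1
    rw [hsp.hx] at hx
    rw [hsp.hy] at hy
    exact hA.noext q hnd (fun z hz => by rw [← hsp.hN]; exact hb z hz) (by omega) hx hy hch
  · intro hc
    rw [hsp.hcyc] at hc
    exact absurd hc (by decide)
  · intro j h1 h2 i hi hAi
    rcases hlex j h1 h2 i hi hAi with h3 | ⟨t, ht, h3, -⟩
    · exact ⟨i, le_refl _, h3⟩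
    · exact ⟨t, by omega, h3⟩

end Vale.Agent.P048
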