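import Vale.Agent.P048.ZNat
import Vale.Agent.P048.Sat.Graph

/-!
# P048: glue between the checker's `Sat.Model` and the statements `PSL a`, `DShort a k L0`
-/

namespace Vale.Agent.P048

open Vale.Agent.P048.Sat

/-- the checker problem for `PSL a`: path `0, …, 2a-1`, `J = {2a, …, 3a-1}`, forbidden: paths from
`0` to `2a-1` on exactly `2a+1` vertices -/
def pslSpec (a W : ℕ) : Spec where
  N := 3 * a
  a := a
  l := 2 * a
  cf := false
  jl := 2 * a
  cyc := false
  L0 := 2 * a + 1
  L1 := 2 * a + 1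
  x := 0
  y := 2 * a - 1
  W := W

theorem psl_of_noModel (a W : ℕ) (ha : 1 ≤ a) (h : ∀ A : ℕ → ℕ → Prop, ¬ Model (pslSpec a W) A) :
    PSL a := by
  refine psl_of_firstNb a ha (fun A hA hs => h A ?_)
  refine ⟨hA.symm, hA.path, ?_, ?_, hA.alpha, ?_, ?_, hs⟩
  · intro hcf
    exact absurd hcf (by simp [pslSpec])
  · intro u v hu huv _
    have hu' : 2 * a ≤ u := hu
    exact hA.indep u v hu' (by omega)
  · intro _ q hnd hb h0 h1 hch hx hy
    have h0' : 2 * a + 1 ≤ q.length := h0
    have h1' : q.length ≤ 2 * a + 1 := h1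
    exact hA.noext q hnd hb (by omega) hx hy hch
  · intro hc
    exact absurd hc (by simp [pslSpec])

/-- the checker problem for `DShort a k L0`: cycle `0, …, k-1`, `J = {k, …, k+b-1}`, forbidden:
cycles with at least `L0` and at most `k-1` vertices -/
def zSpec (a k b L0 W : ℕ) : Spec where
  N := k + b
  a := a
  l := k
  cf := true
  jl := k
  cyc := true
  L0 := L0
  L1 := k - 1
  x := 0
  y := 0
  W := W

theorem dshort_of_noModel (a k b L0 W : ℕ) (hk : 3 ≤ k) (hb : b ≤ a) (hL0 : 3 ≤ L0)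
    (h : ∀ A : ℕ → ℕ → Prop, ¬ Model (zSpec a k b L0 W) A) : DShort a k L0 := by
  refine dshort_of_firstNb a k b L0 hk hb hL0 (fun A hA hs => h A ?_)
  refine ⟨hA.symm, hA.cyc, ?_, ?_, hA.alpha, ?_, ?_, hs⟩
  · intro _
    exact hA.symm _ _ hA.close
  · intro u v hu huv _
    have hu' : k ≤ u := hu
    exact hA.indep u v hu' (by omega)
  · intro hc
    exact absurd hc (by simp [zSpec])
  · intro _ q hnd hb' h0 h1 hch x y hx hy hyx
    have h1' : q.length ≤ k - 1 := h1
    exact hA.nocyc q hnd hb' h0 (by omega) hch x y hx hy hyx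

end Vale.Agent.P048
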