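import Vale.Agent.P048.Defs

/-!
# P048: the standard induction on `n` (delete a closed neighbourhood)
-/

namespace Vale.Agent.P048

open SimpleGraph

/-- T7. A cycle of an induced subgraph is a cycle of the graph.
Proof: map the walk along `Embedding.induce s`, `Walk.isCycle_map_iff_of_injective`. -/
theorem hasCycle_of_induce {V : Type} {G : SimpleGraph V} (s : Set V) {k : ℕ}
    (h : HasCycle (G.induce s) k) : HasCycle G k := by
  obtain ⟨v, w, hw, hl⟩ := h
  refine ⟨_, w.map (Embedding.induce s).toHom, ?_, ?_⟩
  · exact (Walk.isCycle_map_iff_of_injective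
      (f := (Embedding.induce (G := G) s).toHom) (Embedding.induce (G := G) s).injective).mpr hw
  · rw [Walk.length_map, hl]

/-- T8. An independent `n`-set among the non-neighbours of `v` extends by `v`. -/
theorem hasIndep_succ_of_induce {V : Type} {G : SimpleGraph V} (v : V) {n : ℕ}
    (h : HasIndep (G.induce {w | w ≠ v ∧ ¬ G.Adj v w}) n) : HasIndep G (n + 1) := by
  classical
  obtain ⟨s, hs, hcard⟩ := h
  set t : Finset V := s.map (Function.Embedding.subtype _) with ht
  have hvt : v ∉ t := by
    intro hv
    rw [ht, Finset.mem_map] at hv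
    obtain ⟨⟨x, hx⟩, _, hxv⟩ := hv
    exact hx.1 hxv
  refine ⟨insert v t, ?_, ?_⟩
  · intro a ha b hb hab
    rw [Finset.coe_insert] at ha hb
    have key : ∀ x ∈ (t : Set V), ¬ G.Adj v x := by
      intro x hx
      rw [ht, Finset.coe_map] at hx
      obtain ⟨⟨y, hy⟩, _, rfl⟩ := hx
      exact hy.2
    rcases ha with rfl | ha
    · rcases hb with rfl | hb
      · exact absurd rfl hab
      · exact key b hb
    · rcases hb with rfl | hb
      · exact fun h => key a ha h.symm
      · rw [ht, Finset.coe_map] at ha hb
        obtain ⟨a', ha', rfl⟩ := ha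
        obtain ⟨b', hb', rfl⟩ := hb
        have hne : a' ≠ b' := fun h => hab (by rw [h])
        exact hs ha' hb' hne
  · rw [Finset.card_insert_of_notMem hvt, ht, Finset.card_map, hcard]

/-- T9. Induction on `n`: if a graph property `Φ` passes from induced subgraphs to the graph and
holds for all nonempty finite graphs of minimum degree at least `m-1`, then every graph with at
least `(m-1)(n-1)+1` vertices has an independent `n`-set or has `Φ`.
Proof: induction on `n`. `n = 1`: a single vertex. Step: if all degrees are at least `m-1` use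
`hδ`; otherwise some `v` has at most `m-2` neighbours, the set `{w | w ≠ v ∧ ¬ G.Adj v w}` has at
least `(m-1)(n-1)+1` elements, apply the induction hypothesis to the induced subgraph, T8, `hmono`. -/
theorem ramsey_induct (m : ℕ) (hm : 1 ≤ m) (Φ : ∀ V : Type, SimpleGraph V → Prop)
    (hmono : ∀ (V : Type) (G : SimpleGraph V) (s : Set V), Φ s (G.induce s) → Φ V G)
    (hδ : ∀ (V : Type) [Fintype V] [Nonempty V] (G : SimpleGraph V),
      (∀ v : V, m - 1 ≤ (G.neighborSet v).ncard) → Φ V G) :
    ∀ n : ℕ, 1 ≤ n → ∀ (V : Type) [Fintype V] (G : SimpleGraph V),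
      (m - 1) * (n - 1) + 1 ≤ Fintype.card V → HasIndep G n ∨ Φ V G := by
  classical
  intro n hn
  induction n, hn using Nat.le_induction with
  | base =>
    intro V _ G hcard
    left
    have hpos : 0 < Fintype.card V := by omega
    obtain ⟨v⟩ := Fintype.card_pos_iff.mp hpos
    refine ⟨{v}, ?_, Finset.card_singleton v⟩
    intro a ha b hb hab
    rw [Finset.coe_singleton, Set.mem_singleton_iff] at ha hb
    exact absurd (ha.trans hb.symm) hab
  | succ n hn ih =>
    intro V _ G hcard
    have hpos : 0 < Fintype.card V := by omega
    have : Nonempty V := Fintype.card_pos_iff.mp hpos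
    by_cases hdeg : ∀ v : V, m - 1 ≤ (G.neighborSet v).ncard
    · exact Or.inr (hδ V G hdeg)
    · push Not at hdeg
      obtain ⟨v, hv⟩ := hdeg
      set S : Set V := {w | w ≠ v ∧ ¬ G.Adj v w} with hS
      have hScard : (m - 1) * (n - 1) + 1 ≤ Fintype.card S := by
        have h1 : (Set.univ : Set V) = insert v (G.neighborSet v) ∪ S := by
          ext w
          simp only [Set.mem_univ, Set.mem_union, Set.mem_insert_iff, mem_neighborSet, hS,
            Set.mem_ofPred_eq, true_iff]
          by_cases h1 : w = v
          · exact Or.inl (Or.inl h1)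
          · by_cases h2 : G.Adj v w
            · exact Or.inl (Or.inr h2)
            · exact Or.inr ⟨h1, h2⟩
        have h2 : Fintype.card V ≤ ((G.neighborSet v).ncard + 1) + S.ncard := by
          calc Fintype.card V = (Set.univ : Set V).ncard := by
                rw [Set.ncard_univ, Nat.card_eq_fintype_card]
            _ = (insert v (G.neighborSet v) ∪ S).ncard := by rw [← h1]
            _ ≤ (insert v (G.neighborSet v)).ncard + S.ncard := Set.ncard_union_le _ _
            _ ≤ ((G.neighborSet v).ncard + 1) + S.ncard :=
                Nat.add_le_add_right (Set.ncard_insert_le _ _) _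
        have h3 : S.ncard = Fintype.card S := by
          rw [← Nat.card_coe_set_eq, Nat.card_eq_fintype_card]
        have h4 : (m - 1) * (n + 1 - 1) = (m - 1) * (n - 1) + (m - 1) := by
          obtain ⟨k, rfl⟩ : ∃ k, n = k + 1 := ⟨n - 1, by omega⟩
          simp only [Nat.add_sub_cancel]
          ring
        rw [h4] at hcard
        omega
      rcases ih S (G.induce S) hScard with h | h
      · exact Or.inl (hasIndep_succ_of_induce v h)
      · exact Or.inr (hmono V G S h)

end Vale.Agent.P048
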