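import Vale.Agent.P048.PSLDef

/-!
# P048: transfer of `PSL a` to a statement about relations on natural numbers

Vertices `0, …, 2a-1` are the path, `2a, …, 3a-1` the independent set `J`, sorted by a key.
-/

namespace Vale.Agent.P048

open SimpleGraph

lemma exists_perm_sorted {α : Type*} (key : α → ℕ) (l : List α) :
    ∃ l' : List α, l'.Perm l ∧ l'.Pairwise (fun u v => key u ≤ key v) := by
  have : Std.Total (fun u v : α => key u ≤ key v) := ⟨fun a b => Nat.le_total _ _⟩
  have : IsTrans α (fun u v : α => key u ≤ key v) := ⟨fun a b c => Nat.le_trans⟩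
  exact ⟨l.insertionSort (fun u v => key u ≤ key v), List.perm_insertionSort _ l,
    List.pairwise_insertionSort _ l⟩

/-- A counterexample to `PSL a` on the natural numbers (without the symmetry breaking condition). -/
structure PSLInst (a : ℕ) (A : ℕ → ℕ → Prop) : Prop where
  symm : ∀ u v, A u v → A v u
  path : ∀ i, i + 1 < 2 * a → A i (i + 1)
  indep : ∀ u v, 2 * a ≤ u → 2 * a ≤ v → ¬ A u v
  alpha : ∀ s : List ℕ, s.Pairwise (· < ·) → s.length = a + 1 → (∀ v ∈ s, v < 3 * a) →
    ∃ u ∈ s, ∃ v ∈ s, u < v ∧ A u v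
  noext : ∀ q : List ℕ, q.Nodup → (∀ v ∈ q, v < 3 * a) → q.length = 2 * a + 1 →
    q.head? = some 0 → q.getLast? = some (2 * a - 1) → ¬ q.IsChain A

/-- **Transfer.**  If no relation on `ℕ` is a counterexample whose `J`-columns are sorted by `key`,
then `PSL a` holds. -/
theorem psl_of_key (a : ℕ) (ha : 1 ≤ a) (key : (ℕ → Prop) → ℕ)
    (h : ∀ A : ℕ → ℕ → Prop, PSLInst a A →
      (∀ j, 2 * a ≤ j → j + 1 < 3 * a → key (fun i => A i j) ≤ key (fun i => A i (j + 1))) →
      False) : PSL a := by
  classical
  intro V G P J hnd hPl hJl hch hJi hal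
  by_contra hcon
  -- sort `J`
  set colV : V → ℕ → Prop := fun w i => ∃ hi : i < P.length, G.Adj P[i] w with hcolV
  obtain ⟨J', hperm, hsort⟩ := exists_perm_sorted (fun w => key (colV w)) J
  set L : List V := P ++ J' with hL
  have hLperm : L.Perm (P ++ J) := hperm.append_left P
  have hLnd : L.Nodup := hLperm.nodup_iff.2 hnd
  have hJ'l : J'.length = a := by rw [hperm.length_eq, hJl]
  have hLl : L.length = 3 * a := by rw [hL, List.length_append, hPl, hJ'l]; ring
  have hLne : L ≠ [] := by
    intro h0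
    rw [h0] at hLl
    simp at hLl
    omega
  set d : V := L.head hLne with hd
  set f : ℕ → V := fun i => L.getD i d with hf
  have hfL : ∀ i (hi : i < L.length), f i = L[i] := fun i hi => List.getD_eq_getElem _ _ hi
  have hfP : ∀ i (hi : i < P.length), f i = P[i] := by
    intro i hi
    rw [hfL i (by rw [hLl]; omega)]
    exact List.getElem_append_left hi
  have hfJ : ∀ i (h1 : 2 * a ≤ i) (h2 : i < 3 * a), f i = J'[i - 2 * a]'(by omega) := by
    intro i h1 h2
    rw [hfL i (by rw [hLl]; exact h2)]
    rw [List.getElem_append_right (by rw [hPl]; exact h1)]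
    simp only [hPl]
  have hfJmem : ∀ i, 2 * a ≤ i → i < 3 * a → f i ∈ J := by
    intro i h1 h2
    rw [hfJ i h1 h2]
    exact hperm.mem_iff.1 (List.getElem_mem _)
  have hfmem : ∀ i, i < 3 * a → f i ∈ P ++ J := by
    intro i hi
    rw [hfL i (by rw [hLl]; exact hi)]
    exact hLperm.mem_iff.1 (List.getElem_mem _)
  have hfinj : ∀ i j, i < 3 * a → j < 3 * a → f i = f j → i = j := by
    intro i j hi hj hij
    rw [hfL i (by rw [hLl]; exact hi), hfL j (by rw [hLl]; exact hj)] at hij
    exact (hLnd.getElem_inj_iff).1 hij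
  set A : ℕ → ℕ → Prop := fun u v => u < 3 * a ∧ v < 3 * a ∧ G.Adj (f u) (f v) with hA
  have hinst : PSLInst a A := by
    refine ⟨?_, ?_, ?_, ?_, ?_⟩
    · rintro u v ⟨h1, h2, h3⟩
      exact ⟨h2, h1, h3.symm⟩
    · intro i hi
      refine ⟨by omega, by omega, ?_⟩
      rw [hfP i (by omega), hfP (i + 1) (by omega)]
      exact (List.isChain_iff_getElem.1 hch) i (by omega)
    · rintro u v hu hv ⟨h1, h2, h3⟩
      exact hJi _ (hfJmem u hu h1) _ (hfJmem v hv h2) h3
    · intro s hs hsl hsb
      have hsnd : s.Nodup := hs.imp (fun h => Nat.ne_of_lt h)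
      have hmapnd : (s.map f).Nodup := by
        rw [List.nodup_map_iff_inj_on hsnd]
        intro x hx y hy hxy
        exact hfinj x y (hsb x hx) (hsb y hy) hxy
      obtain ⟨u', hu', v', hv', hadj⟩ := hal (s.map f).toFinset
        (by
          intro v hv
          rw [List.mem_toFinset, List.mem_map] at hv
          obtain ⟨i, hi, rfl⟩ := hv
          exact hfmem i (hsb i hi))
        (by rw [List.toFinset_card_of_nodup hmapnd, List.length_map, hsl])
      rw [List.mem_toFinset, List.mem_map] at hu' hv'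
      obtain ⟨u, hu, rfl⟩ := hu'
      obtain ⟨v, hv, rfl⟩ := hv'
      have hne : u ≠ v := by
        rintro rfl
        exact G.loopless.irrefl _ hadj
      rcases Nat.lt_or_gt_of_ne hne with hlt | hlt
      · exact ⟨u, hu, v, hv, hlt, hsb u hu, hsb v hv, hadj⟩
      · exact ⟨v, hv, u, hu, hlt, hsb v hv, hsb u hu, hadj.symm⟩
    · intro q hqnd hqb hql hqh hqlast hqch
      apply hcon
      refine ⟨q.map f, ?_, ?_, ?_, ?_, ?_, ?_⟩
      · rw [List.nodup_map_iff_inj_on hqnd]
        intro x hx y hy hxy
        exact hfinj x y (hqb x hx) (hqb y hy) hxy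
      · exact List.isChain_map_of_isChain f (fun u v huv => huv.2.2) hqch
      · rw [List.length_map, hql]
      · rw [List.head?_map, hqh, Option.map_some, hfP 0 (by omega)]
        rw [List.head?_eq_getElem?, List.getElem?_eq_getElem (by omega)]
      · rw [List.getLast?_map, hqlast, Option.map_some, hfP (2 * a - 1) (by omega)]
        rw [List.getLast?_eq_getElem?, List.getElem?_eq_getElem (by omega)]
        simp only [hPl]
      · intro v hv
        rw [List.mem_map] at hv
        obtain ⟨i, hi, rfl⟩ := hv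
        exact hfmem i (hqb i hi)
  have hcol : ∀ j, 2 * a ≤ j → j < 3 * a → (fun i => A i j) = colV (f j) := by
    intro j h1 h2
    funext i
    apply propext
    constructor
    · rintro ⟨hi, _, hadj⟩
      by_cases hi2 : i < 2 * a
      · exact ⟨by omega, by rw [← hfP i (by omega)]; exact hadj⟩
      · exact absurd hadj (hJi _ (hfJmem i (by omega) hi) _ (hfJmem j h1 h2))
    · rintro ⟨hi, hadj⟩
      exact ⟨by omega, h2, by rw [hfP i hi]; exact hadj⟩
  refine h A hinst ?_
  intro j h1 h2
  rw [hcol j h1 (by omega), hcol (j + 1) (by omega) h2, hfJ j h1 (by omega),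
    hfJ (j + 1) (by omega) h2]
  have := (List.pairwise_iff_getElem.1 hsort) (j - 2 * a) (j + 1 - 2 * a) (by omega) (by omega)
    (by omega)
  exact this

open Classical in
/-- position of the first neighbour on the path (`2a` if there is none) -/
noncomputable def firstNb (a : ℕ) (c : ℕ → Prop) : ℕ :=
  if h : ∃ i, i < 2 * a ∧ c i then Nat.find h else 2 * a

/-- **Transfer with the symmetry breaking `J` sorted by first neighbour on the path.** -/
theorem psl_of_firstNb (a : ℕ) (ha : 1 ≤ a)
    (h : ∀ A : ℕ → ℕ → Prop, PSLInst a A →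
      (∀ j, 2 * a ≤ j → j + 1 < 3 * a → ∀ i, i < 2 * a → A i (j + 1) → ∃ i', i' ≤ i ∧ A i' j) →
      False) : PSL a := by
  classical
  refine psl_of_key a ha (firstNb a) (fun A hA hkey => h A hA ?_)
  intro j h1 h2 i hi hAi
  have hk := hkey j h1 h2
  have hex : ∃ i, i < 2 * a ∧ A i (j + 1) := ⟨i, hi, hAi⟩
  have hk2 : firstNb a (fun i => A i (j + 1)) ≤ i := by
    unfold firstNb
    rw [dif_pos hex]
    exact Nat.find_min' hex ⟨hi, hAi⟩
  by_cases hex' : ∃ i, i < 2 * a ∧ A i j
  · have hk1 : firstNb a (fun i => A i j) = Nat.find hex' := by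
      unfold firstNb
      rw [dif_pos hex']
    exact ⟨Nat.find hex', by omega, (Nat.find_spec hex').2⟩
  · have hk1 : firstNb a (fun i => A i j) = 2 * a := by
      unfold firstNb
      rw [dif_neg hex']
    omega

end Vale.Agent.P048
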