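import Vale.Agent.P048.PathCycle

/-!
# P048: shortening a long cycle by a bounded amount
-/

namespace Vale.Agent.P048

open SimpleGraph

universe u

variable {V : Type u} {G : SimpleGraph V}

/-- T5. If `G` has no independent set of size `a+1`, every cycle of length `z ≥ 2a+2` can be
shortened to a cycle of length `z'` with `z - 2a + 1 ≤ z' ≤ z - 1`.
Proof: write the cycle as a path `w` with `z-1 ≥ 2a+1` edges plus a closing edge (T2). The `a+1`
vertices `w.getVert (2 i)`, `i ≤ a`, are distinct (`IsPath.getVert_injOn`), so two of them are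
adjacent, say at positions `2 i < 2 j ≤ 2 a`. Apply T3 and close up again with T1. -/
theorem shorten {a z : ℕ} (hα : ¬ HasIndep G (a + 1)) (hz : 2 * a + 2 ≤ z) (hc : HasCycle G z) :
    ∃ z', z + 1 ≤ z' + 2 * a ∧ z' < z ∧ HasCycle G z' := by
  classical
  obtain ⟨x, y, w, hw, hlen, h2, hadj⟩ := exists_path_of_hasCycle hc
  have hinj : Set.InjOn (fun i : ℕ => w.getVert (2 * i)) (Finset.range (a + 1) : Set ℕ) := by
    intro i hi j hj hij
    rw [Finset.coe_range, Set.mem_Iio] at hi hj
    have h := hw.getVert_injOn (show 2 * i ∈ {k | k ≤ w.length} by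
      show 2 * i ≤ w.length
      omega) (show 2 * j ∈ {k | k ≤ w.length} by
      show 2 * j ≤ w.length
      omega) hij
    omega
  -- two of the vertices are adjacent
  have hex : ∃ i j, i < j ∧ j ≤ a ∧ G.Adj (w.getVert (2 * i)) (w.getVert (2 * j)) := by
    by_contra hno
    apply hα
    refine ⟨(Finset.range (a + 1)).image (fun i : ℕ => w.getVert (2 * i)), ?_, ?_⟩
    · intro u hu v hv huv hadj'
      rw [Finset.coe_image] at hu hv
      obtain ⟨i, hi, rfl⟩ := hu
      obtain ⟨j, hj, rfl⟩ := hv
      rw [Finset.coe_range, Set.mem_Iio] at hi hj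
      rcases lt_trichotomy i j with h | h | h
      · exact hno ⟨i, j, h, by omega, hadj'⟩
      · exact huv (by rw [h])
      · exact hno ⟨j, i, h, by omega, hadj'.symm⟩
    · rw [Finset.card_image_of_injOn hinj, Finset.card_range]
  obtain ⟨i, j, hij, hja, hadj'⟩ := hex
  obtain ⟨w', hw', hlen'⟩ := exists_shortcut w hw (p := 2 * i) (q := 2 * j) (by omega) (by omega)
    hadj'
  refine ⟨w'.length + 1, by omega, by omega, ?_⟩
  exact hasCycle_of_path w' hw' (by omega) hadj

end Vale.Agent.P048
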