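import Vale.Agent.P048.Reduction
import Vale.Agent.P048.PSLNat
import Vale.Agent.P048.Shorten

/-!
# P048: transfer of the shortening statements to relations on natural numbers

Vertices `0, …, k-1` are the cycle `Z`, vertices `k, …, k+b-1` are `b ≤ a` vertices of the outside
independent set `J`, sorted by a key.
-/

namespace Vale.Agent.P048

open SimpleGraph

/-- A counterexample to the shortening statement on the natural numbers (without the symmetry
breaking condition). -/
structure ZInst (a k b L0 : ℕ) (A : ℕ → ℕ → Prop) : Prop where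
  symm : ∀ u v, A u v → A v u
  cyc : ∀ i, i + 1 < k → A i (i + 1)
  close : A (k - 1) 0
  indep : ∀ u v, k ≤ u → k ≤ v → ¬ A u v
  alpha : ∀ s : List ℕ, s.Pairwise (· < ·) → s.length = a + 1 → (∀ v ∈ s, v < k + b) →
    ∃ u ∈ s, ∃ v ∈ s, u < v ∧ A u v
  nocyc : ∀ q : List ℕ, q.Nodup → (∀ v ∈ q, v < k + b) → L0 ≤ q.length → q.length < k →
    q.IsChain A → ∀ x y, q.head? = some x → q.getLast? = some y → ¬ A y x

/-- **Transfer.**  If no relation on `ℕ` is a counterexample whose `J`-columns are sorted by `key`,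
then `DShort a k L0` holds. -/
theorem dshort_of_key (a k b L0 : ℕ) (hk : 3 ≤ k) (hb : b ≤ a) (hL0 : 3 ≤ L0)
    (key : (ℕ → Prop) → ℕ)
    (h : ∀ A : ℕ → ℕ → Prop, ZInst a k b L0 A →
      (∀ j, k ≤ j → j + 1 < k + b → key (fun i => A i j) ≤ key (fun i => A i (j + 1))) →
      False) : DShort a k L0 := by
  classical
  intro V G P J0 hnd0 hPl hJl0 hcyc hJi0 hal0
  by_contra hcon
  obtain ⟨hP3, hPnd, hch, hclose⟩ := hcyc
  -- keep only `b` vertices of `J`
  set J : List V := J0.take b with hJdef
  have hJsub : ∀ v ∈ J, v ∈ J0 := fun v hv => List.mem_of_mem_take hv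
  have hJl : J.length = b := by rw [hJdef, List.length_take, hJl0]; omega
  have hnd : (P ++ J).Nodup :=
    List.Nodup.sublist (List.Sublist.append_left (List.take_sublist b J0) P) hnd0
  have hJi : ∀ u ∈ J, ∀ v ∈ J, ¬ G.Adj u v := fun u hu v hv => hJi0 u (hJsub u hu) v (hJsub v hv)
  have hal : ∀ s : Finset V, (∀ v ∈ s, v ∈ P ++ J) → s.card = a + 1 →
      ∃ u ∈ s, ∃ v ∈ s, G.Adj u v := by
    intro s hs hc
    refine hal0 s (fun v hv => ?_) hc
    rcases List.mem_append.1 (hs v hv) with h1 | h1
    · exact List.mem_append.2 (Or.inl h1)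
    · exact List.mem_append.2 (Or.inr (hJsub v h1))
  -- sort `J`
  set colV : V → ℕ → Prop := fun w i => ∃ hi : i < P.length, G.Adj P[i] w with hcolV
  obtain ⟨J', hperm, hsort⟩ := exists_perm_sorted (fun w => key (colV w)) J
  set L : List V := P ++ J' with hL
  have hLperm : L.Perm (P ++ J) := hperm.append_left P
  have hLnd : L.Nodup := hLperm.nodup_iff.2 hnd
  have hJ'l : J'.length = b := by rw [hperm.length_eq, hJl]
  have hLl : L.length = k + b := by rw [hL, List.length_append, hPl, hJ'l]
  have hLne : L ≠ [] := by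
    intro h0
    rw [h0] at hLl
    simp at hLl
    omega
  set d : V := L.head hLne with hd
  set f : ℕ → V := fun i => L.getD i d with hf
  have hfL : ∀ i (hi : i < L.length), f i = L[i] := fun i hi => List.getD_eq_getElem _ _ hi
  have hfP : ∀ i (hi : i < P.length), f i = P[i] := by
    intro i hi
    rw [hfL i (by rw [hLl]; omega)]
    exact List.getElem_append_left hi
  have hfJ : ∀ i (h1 : k ≤ i) (h2 : i < k + b), f i = J'[i - k]'(by omega) := by
    intro i h1 h2
    rw [hfL i (by rw [hLl]; exact h2)]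
    rw [List.getElem_append_right (by rw [hPl]; exact h1)]
    simp only [hPl]
  have hfJmem : ∀ i, k ≤ i → i < k + b → f i ∈ J := by
    intro i h1 h2
    rw [hfJ i h1 h2]
    exact hperm.mem_iff.1 (List.getElem_mem _)
  have hfmem : ∀ i, i < k + b → f i ∈ P ++ J := by
    intro i hi
    rw [hfL i (by rw [hLl]; exact hi)]
    exact hLperm.mem_iff.1 (List.getElem_mem _)
  have hfinj : ∀ i j, i < k + b → j < k + b → f i = f j → i = j := by
    intro i j hi hj hij
    rw [hfL i (by rw [hLl]; exact hi), hfL j (by rw [hLl]; exact hj)] at hij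
    exact (hLnd.getElem_inj_iff).1 hij
  set A : ℕ → ℕ → Prop := fun u v => u < k + b ∧ v < k + b ∧ G.Adj (f u) (f v) with hA
  have hinst : ZInst a k b L0 A := by
    refine ⟨?_, ?_, ?_, ?_, ?_, ?_⟩
    · rintro u v ⟨h1, h2, h3⟩
      exact ⟨h2, h1, h3.symm⟩
    · intro i hi
      refine ⟨by omega, by omega, ?_⟩
      rw [hfP i (by omega), hfP (i + 1) (by omega)]
      exact (List.isChain_iff_getElem.1 hch) i (by omega)
    · refine ⟨by omega, by omega, ?_⟩
      rw [hfP (k - 1) (by omega), hfP 0 (by omega)]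
      apply hclose
      · rw [List.head?_eq_getElem?, List.getElem?_eq_getElem (by omega)]
        rfl
      · rw [List.getLast?_eq_getElem?, List.getElem?_eq_getElem (by omega)]
        simp only [hPl]
        rfl
    · rintro u v hu hv ⟨h1, h2, h3⟩
      exact hJi _ (hfJmem u hu h1) _ (hfJmem v hv h2) h3
    · intro s hs hsl hsb
      have hsnd : s.Nodup := hs.imp (fun h => Nat.ne_of_lt h)
      have hmapnd : (s.map f).Nodup := by
        rw [List.nodup_map_iff_inj_on hsnd]
        intro x hx y hy hxy
        exact hfinj x y (hsb x hx) (hsb y hy) hxy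
      obtain ⟨u', hu', v', hv', hadj⟩ := hal (s.map f).toFinset
        (by
          intro v hv
          rw [List.mem_toFinset, List.mem_map] at hv
          obtain ⟨i, hi, rfl⟩ := hv
          exact hfmem i (hsb i hi))
        (by rw [List.toFinset_card_of_nodup hmapnd, List.length_map, hsl])
      rw [List.mem_toFinset, List.mem_map] at hu' hv'
      obtain ⟨u, hu, rfl⟩ := hu'
      obtain ⟨v, hv, rfl⟩ := hv'
      have hne : u ≠ v := by
        rintro rfl
        exact G.loopless.irrefl _ hadj
      rcases Nat.lt_or_gt_of_ne hne with hlt | hlt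
      · exact ⟨u, hu, v, hv, hlt, hsb u hu, hsb v hv, hadj⟩
      · exact ⟨v, hv, u, hu, hlt, hsb v hv, hsb u hu, hadj.symm⟩
    · intro q hqnd hqb hql hqk hqch x y hx hy hyx
      apply hcon
      refine ⟨q.map f, ⟨?_, ?_, ?_, ?_⟩, ?_, ?_⟩
      · rw [List.length_map]; omega
      · rw [List.nodup_map_iff_inj_on hqnd]
        intro x hx y hy hxy
        exact hfinj x y (hqb x hx) (hqb y hy) hxy
      · exact List.isChain_map_of_isChain f (fun u v huv => huv.2.2) hqch
      · intro x' hx' y' hy'
        rw [List.head?_map, hx] at hx'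
        rw [List.getLast?_map, hy] at hy'
        simp only [Option.map_some, Option.mem_def, Option.some.injEq] at hx' hy'
        subst hx' hy'
        exact hyx.2.2
      · rw [List.length_map]; exact hql
      · rw [List.length_map]; exact hqk
  have hcol : ∀ j, k ≤ j → j < k + b → (fun i => A i j) = colV (f j) := by
    intro j h1 h2
    funext i
    apply propext
    constructor
    · rintro ⟨hi, _, hadj⟩
      by_cases hi2 : i < k
      · exact ⟨by omega, by rw [← hfP i (by omega)]; exact hadj⟩
      · exact absurd hadj (hJi _ (hfJmem i (by omega) hi) _ (hfJmem j h1 h2))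
    · rintro ⟨hi, hadj⟩
      exact ⟨by omega, h2, by rw [hfP i hi]; exact hadj⟩
  refine h A hinst ?_
  intro j h1 h2
  rw [hcol j h1 (by omega), hcol (j + 1) (by omega) h2, hfJ j h1 (by omega),
    hfJ (j + 1) (by omega) h2]
  have := (List.pairwise_iff_getElem.1 hsort) (j - k) (j + 1 - k) (by omega) (by omega)
    (by omega)
  exact this

open Classical in
/-- position of the first neighbour on the cycle (`k` if there is none) -/
noncomputable def firstNbK (k : ℕ) (c : ℕ → Prop) : ℕ :=
  if h : ∃ i, i < k ∧ c i then Nat.find h else k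

/-- **Transfer with the symmetry breaking `J` sorted by first neighbour on the cycle.** -/
theorem dshort_of_firstNb (a k b L0 : ℕ) (hk : 3 ≤ k) (hb : b ≤ a) (hL0 : 3 ≤ L0)
    (h : ∀ A : ℕ → ℕ → Prop, ZInst a k b L0 A →
      (∀ j, k ≤ j → j + 1 < k + b → ∀ i, i < k → A i (j + 1) → ∃ i', i' ≤ i ∧ A i' j) →
      False) : DShort a k L0 := by
  classical
  refine dshort_of_key a k b L0 hk hb hL0 (firstNbK k) (fun A hA hkey => h A hA ?_)
  intro j h1 h2 i hi hAi
  have hk := hkey j h1 h2
  have hex : ∃ i, i < k ∧ A i (j + 1) := ⟨i, hi, hAi⟩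
  have hk2 : firstNbK k (fun i => A i (j + 1)) ≤ i := by
    unfold firstNbK
    rw [dif_pos hex]
    exact Nat.find_min' hex ⟨hi, hAi⟩
  by_cases hex' : ∃ i, i < k ∧ A i j
  · have hk1 : firstNbK k (fun i => A i j) = Nat.find hex' := by
      unfold firstNbK
      rw [dif_pos hex']
    exact ⟨Nat.find hex', by omega, (Nat.find_spec hex').2⟩
  · have hk1 : firstNbK k (fun i => A i j) = k := by
      unfold firstNbK
      rw [dif_neg hex']
    omega

/-- Long cycles: one chord suffices. -/
theorem shortensAt_large (a k : ℕ) (hk0 : 2 * a + 2 ≤ k) (hk : 4 * a - 1 ≤ k) :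
    ShortensAt a k (2 * a) := by
  intro V G hc hα
  obtain ⟨z', h1, h2, h3⟩ := shorten hα (by omega) hc
  exact ⟨z', by omega, h2, h3⟩

end Vale.Agent.P048
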