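import Vale.Agent.P048.PSLNat
import Vale.Agent.P048.ZNat

/-!
# P048: sorting the columns of `J` lexicographically

`nkey l f` is the binary value of the complemented column `f` (rows `0, …, l - 1`, row `0` most
significant).  Sorting the columns by increasing `nkey` sorts them lexicographically decreasing,
which is expressed without any auxiliary notion by the property `LEX` below.
-/

namespace Vale.Agent.P048

open Classical in
/-- binary value of the complemented column `f`, row `0` most significant -/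
noncomputable def nkey : ℕ → (ℕ → Prop) → ℕ
  | 0, _ => 0
  | l + 1, f => 2 * nkey l f + (if f l then 0 else 1)

theorem nkey_succ (l : ℕ) (f : ℕ → Prop) [Decidable (f l)] :
    nkey (l + 1) f = 2 * nkey l f + (if f l then 0 else 1) := by
  rw [nkey]
  congr

theorem nkey_mono {f g : ℕ → Prop} (i : ℕ) (h : ∀ t, t < i → f t → g t) :
    nkey i g ≤ nkey i f := by
  classical
  induction i with
  | zero => exact le_refl _
  | succ n ih =>
    have h1 := ih (fun t ht => h t (by omega))
    rw [nkey_succ, nkey_succ]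
    by_cases hf : f n
    · have hg := h n (by omega) hf
      rw [if_pos hf, if_pos hg]
      omega
    · rw [if_neg hf]
      split_ifs <;> omega

theorem nkey_lt_persist {f g : ℕ → Prop} {k : ℕ} (h : nkey k g < nkey k f) (d : ℕ) :
    nkey (k + d) g < nkey (k + d) f := by
  classical
  induction d with
  | zero => exact h
  | succ n ih =>
    have e : k + (n + 1) = (k + n) + 1 := by omega
    rw [e, nkey_succ, nkey_succ]
    split_ifs <;> omega

/-- columns sorted by `nkey` are lexicographically decreasing -/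
theorem lex_of_nkey_le {l : ℕ} {f g : ℕ → Prop} (h : nkey l f ≤ nkey l g) :
    ∀ i, i < l → g i → f i ∨ ∃ t, t < i ∧ f t ∧ ¬ g t := by
  classical
  intro i hi hg
  by_contra hcon
  have hf : ¬ f i := fun h0 => hcon (Or.inl h0)
  have hall : ∀ t, t < i → f t → g t := by
    intro t ht hft
    by_contra hgt
    exact hcon (Or.inr ⟨t, ht, hft, hgt⟩)
  have h1 : nkey i g ≤ nkey i f := nkey_mono i hall
  have h2 : nkey (i + 1) g < nkey (i + 1) f := by
    rw [nkey_succ, nkey_succ, if_pos hg, if_neg hf]
    omega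
  have h3 := nkey_lt_persist h2 (l - (i + 1))
  have e : i + 1 + (l - (i + 1)) = l := by omega
  rw [e] at h3
  omega

/-- **Transfer for `PSL a` with `J` sorted lexicographically.** -/
theorem psl_of_lex (a : ℕ) (ha : 1 ≤ a)
    (h : ∀ A : ℕ → ℕ → Prop, PSLInst a A →
      (∀ j, 2 * a ≤ j → j + 1 < 3 * a → ∀ i, i < 2 * a → A i (j + 1) →
        A i j ∨ ∃ t, t < i ∧ A t j ∧ ¬ A t (j + 1)) →
      False) : PSL a :=
  psl_of_key a ha (nkey (2 * a)) (fun A hA hkey => h A hA (fun j h1 h2 =>
    lex_of_nkey_le (f := fun i => A i j) (g := fun i => A i (j + 1)) (hkey j h1 h2)))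

/-- **Transfer for `DShort a k L0` with `J` sorted lexicographically.** -/
theorem dshort_of_lex (a k b L0 : ℕ) (hk : 3 ≤ k) (hb : b ≤ a) (hL0 : 3 ≤ L0)
    (h : ∀ A : ℕ → ℕ → Prop, ZInst a k b L0 A →
      (∀ j, k ≤ j → j + 1 < k + b → ∀ i, i < k → A i (j + 1) →
        A i j ∨ ∃ t, t < i ∧ A t j ∧ ¬ A t (j + 1)) →
      False) : DShort a k L0 :=
  dshort_of_key a k b L0 hk hb hL0 (nkey k) (fun A hA hkey => h A hA (fun j h1 h2 =>
    lex_of_nkey_le (f := fun i => A i j) (g := fun i => A i (j + 1)) (hkey j h1 h2)))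

/-- the lexicographic order implies the order by first neighbours -/
theorem firstNb_of_lex {f g : ℕ → Prop} {l : ℕ}
    (h : ∀ i, i < l → g i → f i ∨ ∃ t, t < i ∧ f t ∧ ¬ g t) :
    ∀ i, i < l → g i → ∃ i', i' ≤ i ∧ f i' := by
  intro i hi hg
  rcases h i hi hg with h1 | ⟨t, ht, h1, -⟩
  · exact ⟨i, le_refl _, h1⟩
  · exact ⟨t, by omega, h1⟩

end Vale.Agent.P048
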