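import Vale.Agent.P048.PathCycle

/-!
# P048: minimum degree `m-1` forces `C_m` or a cycle of length at least `2m-2`
-/

namespace Vale.Agent.P048

open SimpleGraph

universe u

variable {V : Type u} {G : SimpleGraph V}

/-- Pigeonhole used in T6: a set of indices in `[1, 2m-4]` without two elements at distance
`m-2` has at most `m-2` elements. -/
theorem card_le_of_no_diff {m : ℕ} (hm : 3 ≤ m) (I : Finset ℕ)
    (h1 : ∀ i ∈ I, 1 ≤ i) (h2 : ∀ i ∈ I, i ≤ 2 * m - 4)
    (h3 : ∀ i ∈ I, ∀ j ∈ I, i < j → j - i ≠ m - 2) : I.card ≤ m - 2 := by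
  have hmaps : ∀ i ∈ I, (if i ≤ m - 2 then i else i - (m - 2)) ∈ Finset.Icc 1 (m - 2) := by
    intro i hi
    have a1 := h1 i hi
    have a2 := h2 i hi
    rw [Finset.mem_Icc]
    split_ifs with h <;> omega
  have hinj : Set.InjOn (fun i => if i ≤ m - 2 then i else i - (m - 2)) (I : Set ℕ) := by
    intro i hi j hj hij
    have hi' : i ∈ I := hi
    have hj' : j ∈ I := hj
    have a1 := h1 i hi'
    have b1 := h1 j hj'
    simp only at hij
    by_contra hne
    rcases Nat.lt_or_gt_of_ne hne with hlt | hlt
    · have := h3 i hi' j hj' hlt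
      split_ifs at hij <;> omega
    · have := h3 j hj' i hi' hlt
      split_ifs at hij <;> omega
  have := Finset.card_le_card_of_injOn _ hmaps hinj
  simpa using this

/-- T6. Proof: take a longest path `w` from `x` (`exists_isPath_forall_isPath_length_le_length`).
Every neighbour of `x` lies on `w`, so it is `w.getVert i` with `1 ≤ i ≤ w.length`; let `I` be the
set of these indices, `|I| ≥ m-1`. If `i < j` in `I` and `j - i = m - 2`, the segment from `i` to `j`
(T4) with `x` put in front is a path with `m-1` edges whose ends are adjacent: `C_m` (T1).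
Otherwise `i ↦ if i ≤ m-2 then i else i-(m-2)` is injective on `I ∩ [1,2m-4]` with values in
`[1,m-2]`, so `I` has an element `j ≥ 2m-3`, and `w.take j` closes up to a cycle of length
`j+1 ≥ 2m-2`. -/
theorem long_or_exact [Finite V] [Nonempty V] {m : ℕ} (hm : 3 ≤ m)
    (hδ : ∀ v : V, m - 1 ≤ (G.neighborSet v).ncard) :
    HasCycle G m ∨ ∃ k, 2 * m - 2 ≤ k ∧ HasCycle G k := by
  classical
  obtain ⟨x, y, w, hw, hmax⟩ := Walk.exists_isPath_forall_isPath_length_le_length G
  -- every neighbour of `x` lies on `w`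
  have hon : ∀ z, G.Adj x z → z ∈ w.support := by
    intro z hz
    by_contra hnot
    have hp : (Walk.cons hz.symm w).IsPath := (Walk.cons_isPath_iff _ _).2 ⟨hw, hnot⟩
    have := hmax _ _ _ hp
    simp at this
  set I : Finset ℕ := (Finset.range (w.length + 1)).filter (fun i => G.Adj x (w.getVert i))
    with hI
  have hImem : ∀ i, i ∈ I ↔ i ≤ w.length ∧ G.Adj x (w.getVert i) := by
    intro i
    simp [hI]
  have hI1 : ∀ i ∈ I, 1 ≤ i := by
    intro i hi
    rcases Nat.eq_zero_or_pos i with h0 | h0
    · subst h0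
      have := ((hImem 0).1 hi).2
      simp at this
    · exact h0
  have hcard : m - 1 ≤ I.card := by
    have hsub : G.neighborSet x ⊆ ((I.image w.getVert : Finset V) : Set V) := by
      intro z hz
      have hz' : G.Adj x z := hz
      obtain ⟨i, hi, hil⟩ := Walk.mem_support_iff_exists_getVert.1 (hon z hz')
      simp only [Finset.coe_image, Set.mem_image, Finset.mem_coe]
      exact ⟨i, (hImem i).2 ⟨hil, hi ▸ hz'⟩, hi⟩
    calc m - 1 ≤ (G.neighborSet x).ncard := hδ x
      _ ≤ ((I.image w.getVert : Finset V) : Set V).ncard :=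
          Set.ncard_le_ncard hsub (Finset.finite_toSet _)
      _ = (I.image w.getVert).card := Set.ncard_coe_finset _
      _ ≤ I.card := Finset.card_image_le
  by_cases hex : ∃ i ∈ I, ∃ j ∈ I, i < j ∧ j - i = m - 2
  · -- a cycle of length exactly `m`
    left
    obtain ⟨i, hi, j, hj, hij, hd⟩ := hex
    obtain ⟨hil, hiadj⟩ := (hImem i).1 hi
    obtain ⟨hjl, hjadj⟩ := (hImem j).1 hj
    obtain ⟨w', hw', hlen, hsupp⟩ := exists_segment w hw hij.le hjl
    have hx : x ∉ w'.support := by
      intro hxs
      obtain ⟨t, ht1, ht2, hxt⟩ := hsupp x hxs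
      have h0 : w.getVert 0 = w.getVert t := by rw [Walk.getVert_zero]; exact hxt
      have := hw.getVert_injOn (by simp) (by simp; omega) h0
      have := hI1 i hi
      omega
    have hp : (Walk.cons hiadj w').IsPath := (Walk.cons_isPath_iff _ _).2 ⟨hw', hx⟩
    have hc := hasCycle_of_path (Walk.cons hiadj w') hp (by simp [hlen]; omega) hjadj.symm
    have hl : (Walk.cons hiadj w').length + 1 = m := by simp [hlen]; omega
    rwa [hl] at hc
  · -- a long cycle
    right
    push Not at hex
    have hbig : ∃ j ∈ I, 2 * m - 3 ≤ j := by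
      by_contra hno
      push Not at hno
      have := card_le_of_no_diff hm I hI1 (fun i hi => by have := hno i hi; omega)
        (fun i hi j hj hij => hex i hi j hj hij)
      omega
    obtain ⟨j, hj, hjbig⟩ := hbig
    obtain ⟨hjl, hjadj⟩ := (hImem j).1 hj
    obtain ⟨w', hw', hlen, -⟩ := exists_segment w hw (Nat.zero_le j) hjl
    have hadj : G.Adj (w.getVert j) (w.getVert 0) := by
      rw [Walk.getVert_zero]; exact hjadj.symm
    have hc := hasCycle_of_path w' hw' (by rw [hlen]; omega) hadj
    exact ⟨w'.length + 1, by rw [hlen]; omega, hc⟩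

end Vale.Agent.P048
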