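import Vale.Agent.P048.Defs

/-!
# P048: restriction of `Upper` to a subset, and the minimum degree step
-/

namespace Vale.Agent.P048

open SimpleGraph

lemma HasCycle.of_comap {V W : Type*} {G : SimpleGraph V} (f : W ↪ V) {m : ℕ}
    (h : HasCycle (G.comap f) m) : HasCycle G m := by
  obtain ⟨v, w, hw, hl⟩ := h
  refine ⟨(SimpleGraph.Embedding.comap f G).toHom v,
    w.map (SimpleGraph.Embedding.comap f G).toHom, ?_, ?_⟩
  · exact hw.map f.injective
  · rw [Walk.length_map]; exact hl

/-- `Upper m a` applied inside a subset `S` of the vertex set. -/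
theorem Upper.on_finset {m a : ℕ} (h : Upper m a) {V : Type} (G : SimpleGraph V)
    (S : Finset V) (hS : (m - 1) * (a - 1) + 1 ≤ S.card) :
    HasCycle G m ∨ ∃ t : Finset V, t ⊆ S ∧ t.card = a ∧ ∀ u ∈ t, ∀ v ∈ t, ¬ G.Adj u v := by
  classical
  have h0 := h {x // x ∈ S} (G.comap (Function.Embedding.subtype (· ∈ S))) (by simpa using hS)
  rcases h0 with hc | ⟨s, hs⟩
  · exact Or.inl hc.of_comap
  · right
    refine ⟨s.map (Function.Embedding.subtype (· ∈ S)), ?_, ?_, ?_⟩
    · intro x hx
      rw [Finset.mem_map] at hx
      obtain ⟨y, _, rfl⟩ := hx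
      exact y.2
    · rw [Finset.card_map]; exact hs.card_eq
    · intro u hu v hv huv
      rw [Finset.mem_map] at hu hv
      obtain ⟨u', hu', rfl⟩ := hu
      obtain ⟨v', hv', rfl⟩ := hv
      have hne : u' ≠ v' := by
        rintro rfl
        exact G.loopless.irrefl _ huv
      exact hs.isIndepSet hu' hv' hne huv

/-- The minimum degree step: in the proof of `Upper m n` by induction on `n` one may assume that
all degrees are at least `m - 1`. -/
theorem upper_of_minDeg (m n : ℕ) (_hm : 3 ≤ m) (hn : 2 ≤ n) (h1 : Upper m (n - 1))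
    (h2 : ∀ (V : Type) [Fintype V] (G : SimpleGraph V), (m - 1) * (n - 1) + 1 ≤ Fintype.card V →
      (∀ v, m - 1 ≤ (G.neighborSet v).ncard) → HasCycle G m ∨ HasIndep G n) : Upper m n := by
  classical
  intro V _ G hcard
  by_cases hdeg : ∀ v, m - 1 ≤ (G.neighborSet v).ncard
  · exact h2 V G hcard hdeg
  push Not at hdeg
  obtain ⟨v, hv⟩ := hdeg
  -- the set of non-neighbours of `v`
  set S : Finset V := Finset.univ.filter (fun w => w ≠ v ∧ ¬ G.Adj v w) with hS
  set T : Finset V := Finset.univ.filter (fun w => G.Adj v w) with hT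
  have hTcard : T.card = (G.neighborSet v).ncard := by
    rw [← Set.ncard_coe_finset]
    congr 1
    ext w
    simp [hT]
  have hsum : S.card + T.card + 1 = Fintype.card V := by
    have hdisj : Disjoint S T := by
      rw [Finset.disjoint_left]
      intro w hw hw'
      simp only [hS, hT, Finset.mem_filter, Finset.mem_univ, true_and] at hw hw'
      exact hw.2 hw'
    have hv' : v ∉ S ∪ T := by
      simp [hS, hT]
    have huniv : insert v (S ∪ T) = Finset.univ := by
      ext w
      simp only [hS, hT, Finset.mem_insert, Finset.mem_union, Finset.mem_filter, Finset.mem_univ,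
        true_and, iff_true]
      tauto
    rw [← Finset.card_univ, ← huniv, Finset.card_insert_of_notMem hv', Finset.card_union_of_disjoint hdisj]
  have hmul : (m - 1) * (n - 1) = (m - 1) * (n - 1 - 1) + (m - 1) := by
    obtain ⟨k, rfl⟩ : ∃ k, n = k + 2 := ⟨n - 2, by omega⟩
    simp only [Nat.add_sub_cancel, show k + 2 - 1 = k + 1 by omega]
    ring
  have hScard : (m - 1) * (n - 1 - 1) + 1 ≤ S.card := by omega
  rcases h1.on_finset G S hScard with hc | ⟨t, htS, htc, hti⟩
  · exact Or.inl hc
  · right
    have hvt : v ∉ t := by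
      intro hvt
      have := htS hvt
      simp [hS] at this
    refine ⟨insert v t, ?_, ?_⟩
    · intro x hx y hy hxy hadj
      simp only [Finset.coe_insert, Set.mem_insert_iff, Finset.mem_coe] at hx hy
      rcases hx with rfl | hx
      · rcases hy with rfl | hy
        · exact hxy rfl
        · have := htS hy
          simp only [hS, Finset.mem_filter, Finset.mem_univ, true_and] at this
          exact this.2 hadj
      · rcases hy with rfl | hy
        · have := htS hx
          simp only [hS, Finset.mem_filter, Finset.mem_univ, true_and] at this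
          exact this.2 hadj.symm
        · exact hti x hx y hy hadj
    · rw [Finset.card_insert_of_notMem hvt, htc]; omega

end Vale.Agent.P048
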