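import Vale.Agent.P048.PSLSmall
import Vale.Agent.P048.Sat.PSL7.Main

/-!
# P048: the path statements `PSL a` for `1 ≤ a ≤ 7` from the kernel checked clause proofs
-/

namespace Vale.Agent.P048

open Vale.Agent.P048.Sat

theorem psl_7 : PSL 7 :=
  psl_of_noModelLex 7 (by norm_num) PSL7.sp
    ⟨rfl, rfl, rfl, rfl, by decide, rfl, rfl, rfl, rfl, rfl⟩ PSL7.unsat

/-- all the path statements needed for `n ≤ 8` -/
theorem psl_all : ∀ a, 1 ≤ a → a ≤ 7 → PSL a := by
  intro a h1 h7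
  have h : a = 1 ∨ a = 2 ∨ a = 3 ∨ a = 4 ∨ a = 5 ∨ a = 6 ∨ a = 7 := by omega
  rcases h with rfl | rfl | rfl | rfl | rfl | rfl | rfl
  · exact psl_1
  · exact psl_2
  · exact psl_3
  · exact psl_4
  · exact psl_5
  · exact psl_6
  · exact psl_7

end Vale.Agent.P048
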