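import Vale.Agent.P048.Defs

/-!
# P048: list versions of paths and cycles; the statements `PSL a` and `ShortensAt a k L0`

These are the interfaces between the graph-theoretic reduction (`Reduction.lean`) and the
certificate side.
-/

namespace Vale.Agent.P048

universe u

variable {V : Type u}

/-- `l` lists the vertices of a cycle of `G` in order (at least three vertices, no repetition,
consecutive vertices adjacent, last vertex adjacent to the first one). -/
def CycL (G : SimpleGraph V) (l : List V) : Prop :=
  3 ≤ l.length ∧ l.Nodup ∧ l.IsChain G.Adj ∧ ∀ x ∈ l.head?, ∀ y ∈ l.getLast?, G.Adj y x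

/-- **Path step lemma** `PSL a` (at `l = 2a`).  `P` is a path on `2a` vertices, `J` an independent set
of `a` vertices disjoint from `P`, and `P ∪ J` contains no independent set of `a + 1` vertices.
Then `P ∪ J` contains a path on `2a + 1` vertices with the same two ends as `P`. -/
def PSL (a : ℕ) : Prop :=
  ∀ (V : Type) (G : SimpleGraph V) (P J : List V),
    (P ++ J).Nodup → P.length = 2 * a → J.length = a →
    P.IsChain G.Adj → (∀ u ∈ J, ∀ v ∈ J, ¬ G.Adj u v) →
    (∀ s : Finset V, (∀ v ∈ s, v ∈ P ++ J) → s.card = a + 1 → ∃ u ∈ s, ∃ v ∈ s, G.Adj u v) →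
    ∃ Q : List V, Q.Nodup ∧ Q.IsChain G.Adj ∧ Q.length = 2 * a + 1 ∧
      Q.head? = P.head? ∧ Q.getLast? = P.getLast? ∧ ∀ v ∈ Q, v ∈ P ++ J

/-- A cycle of length `k` in a graph without independent `(a+1)`-set can be replaced by a shorter
cycle of length at least `L0`. -/
def ShortensAt (a k L0 : ℕ) : Prop :=
  ∀ (V : Type) (G : SimpleGraph V), HasCycle G k → ¬ HasIndep G (a + 1) →
    ∃ l, L0 ≤ l ∧ l < k ∧ HasCycle G l

end Vale.Agent.P048
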