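import Vale.Agent.P048.LexKey

/-!
# P048: transfer of `PSL a` with the columns of `J` in decreasing lexicographic order

`psl_of_lex`, `dshort_of_lex`, `firstNb_of_lex` live in `LexKey.lean`; this file only adds the
variant of the lexicographic hypothesis phrased with agreement of the columns on all earlier rows.
-/

namespace Vale.Agent.P048

/-- the two ways of saying that column `f` is lexicographically at least column `g` -/
lemma lexEq_of_lex {f g : ℕ → Prop} {l : ℕ}
    (h : ∀ i, i < l → g i → f i ∨ ∃ t, t < i ∧ f t ∧ ¬ g t) :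
    ∀ i, i < l → (∀ t, t < i → (f t ↔ g t)) → g i → f i := by
  intro i hi he hg
  rcases h i hi hg with h1 | ⟨t, ht, h1, h2⟩
  · exact h1
  · exact absurd ((he t ht).1 h1) h2

/-- **Transfer for `PSL a`, `J` sorted lexicographically**, the order phrased with agreement on all
earlier rows. -/
theorem psl_of_lexEq (a : ℕ) (ha : 1 ≤ a)
    (h : ∀ A : ℕ → ℕ → Prop, PSLInst a A →
      (∀ j, 2 * a ≤ j → j + 1 < 3 * a → ∀ i, i < 2 * a →
        (∀ i', i' < i → (A i' j ↔ A i' (j + 1))) → A i (j + 1) → A i j) →
      (∀ j, 2 * a ≤ j → j + 1 < 3 * a → ∀ i, i < 2 * a → A i (j + 1) → ∃ i', i' ≤ i ∧ A i' j) →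
      False) : PSL a :=
  psl_of_lex a ha (fun A hA hl => h A hA
    (fun j h1 h2 => lexEq_of_lex (f := fun i => A i j) (g := fun i => A i (j + 1)) (hl j h1 h2))
    (fun j h1 h2 => firstNb_of_lex (f := fun i => A i j) (g := fun i => A i (j + 1)) (hl j h1 h2)))

end Vale.Agent.P048
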