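import Vale.Agent.P048.GlueLex
import Vale.Agent.P048.Sat.PSLTiny
import Vale.Agent.P048.Sat.PSL6.Main

/-!
# P048: the path statements `PSL a` for `1 ≤ a ≤ 6` from the kernel checked clause proofs
-/

namespace Vale.Agent.P048

open Vale.Agent.P048.Sat

theorem psl_1 : PSL 1 :=
  psl_of_noModelLex 1 (by norm_num) PSL1.sp
    ⟨rfl, rfl, rfl, rfl, by decide, rfl, rfl, rfl, rfl, rfl⟩ (fun A hA _ => PSL1.unsat A hA)

theorem psl_2 : PSL 2 :=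
  psl_of_noModelLex 2 (by norm_num) PSL2.sp
    ⟨rfl, rfl, rfl, rfl, by decide, rfl, rfl, rfl, rfl, rfl⟩ (fun A hA _ => PSL2.unsat A hA)

theorem psl_3 : PSL 3 :=
  psl_of_noModelLex 3 (by norm_num) PSL3.sp
    ⟨rfl, rfl, rfl, rfl, by decide, rfl, rfl, rfl, rfl, rfl⟩ PSL3.unsat

theorem psl_4 : PSL 4 :=
  psl_of_noModelLex 4 (by norm_num) PSL4.sp
    ⟨rfl, rfl, rfl, rfl, by decide, rfl, rfl, rfl, rfl, rfl⟩ PSL4.unsat

theorem psl_5 : PSL 5 :=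
  psl_of_noModelLex 5 (by norm_num) PSL5.sp
    ⟨rfl, rfl, rfl, rfl, by decide, rfl, rfl, rfl, rfl, rfl⟩ PSL5.unsat

theorem psl_6 : PSL 6 :=
  psl_of_noModelLex 6 (by norm_num) PSL6.sp
    ⟨rfl, rfl, rfl, rfl, by decide, rfl, rfl, rfl, rfl, rfl⟩ PSL6.unsat

end Vale.Agent.P048
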