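import Vale.Agent.P048.Defs

/-!
# P048: cycles as closed paths, shortcuts and segments of paths
-/

namespace Vale.Agent.P048

open SimpleGraph

universe u

variable {V : Type u} {G : SimpleGraph V}

/-- T1. A path with at least two edges whose ends are adjacent closes up to a cycle. -/
theorem hasCycle_of_path {x y : V} (w : G.Walk x y) (hw : w.IsPath) (h2 : 2 ≤ w.length)
    (hadj : G.Adj y x) : HasCycle G (w.length + 1) := by
  refine ⟨y, Walk.cons hadj w, ?_, by simp⟩
  rw [Walk.cons_isCycle_iff]
  refine ⟨hw, fun hmem => ?_⟩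
  have h1 : w.length = 1 := hw.length_eq_one_of_mem_edges (by rwa [Sym2.eq_swap])
  omega

/-- T2. Conversely every cycle is a path plus a closing edge. -/
theorem exists_path_of_hasCycle {k : ℕ} (h : HasCycle G k) :
    ∃ (x y : V) (w : G.Walk x y), w.IsPath ∧ w.length + 1 = k ∧ 2 ≤ w.length ∧ G.Adj y x := by
  obtain ⟨v, c, hc, hk⟩ := h
  have h3 := hc.three_le_length
  cases c with
  | nil => simp at h3
  | cons hadj p =>
    rw [Walk.cons_isCycle_iff] at hc
    simp only [Walk.length_cons] at hk h3
    exact ⟨_, _, p, hc.1, hk, by omega, hadj⟩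

/-- T3. Shortcut: a chord between positions `p < q` of a path gives a path with the same ends
that skips the positions strictly between. -/
theorem exists_shortcut {x y : V} (w : G.Walk x y) (hw : w.IsPath) {p q : ℕ} (hpq : p < q)
    (hq : q ≤ w.length) (hadj : G.Adj (w.getVert p) (w.getVert q)) :
    ∃ w' : G.Walk x y, w'.IsPath ∧ w'.length + (q - p) = w.length + 1 := by
  refine ⟨(w.take p).append (Walk.cons hadj (w.drop q)), ?_, ?_⟩
  · have hinj := hw.getVert_injOn
    rw [Walk.isPath_def, Walk.support_append, Walk.support_cons, List.tail_cons]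
    rw [List.nodup_append]
    refine ⟨(hw.take p).support_nodup, (hw.drop q).support_nodup, ?_⟩
    intro a ha b hb hab
    rw [Walk.mem_support_iff_exists_getVert] at ha hb
    obtain ⟨i, hi, hil⟩ := ha
    obtain ⟨j, hj, hjl⟩ := hb
    rw [Walk.take_getVert] at hi
    rw [Walk.drop_getVert] at hj
    rw [Walk.take_length] at hil
    rw [Walk.drop_length] at hjl
    have : p ⊓ i = q + j := by
      apply hinj
      · show p ⊓ i ≤ w.length
        omega
      · show q + j ≤ w.length
        omega
      · rw [hi, hj, hab]
    omega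
  · simp only [Walk.length_append, Walk.length_cons, Walk.take_length, Walk.drop_length]
    omega

/-- T4. The segment of a path between positions `p ≤ q`. -/
theorem exists_segment {x y : V} (w : G.Walk x y) (hw : w.IsPath) {p q : ℕ} (hpq : p ≤ q)
    (hq : q ≤ w.length) :
    ∃ w' : G.Walk (w.getVert p) (w.getVert q), w'.IsPath ∧ w'.length = q - p ∧
      ∀ z ∈ w'.support, ∃ i, p ≤ i ∧ i ≤ q ∧ z = w.getVert i := by
  have he : (w.drop p).getVert (q - p) = w.getVert q := by
    rw [Walk.drop_getVert]; congr 1; omega
  refine ⟨((w.drop p).take (q - p)).copy rfl he, ?_, ?_, ?_⟩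
  · rw [Walk.isPath_copy]
    exact (hw.drop p).take _
  · rw [Walk.length_copy, Walk.take_length, Walk.drop_length]
    omega
  · intro z hz
    rw [Walk.support_copy, Walk.mem_support_iff_exists_getVert] at hz
    obtain ⟨i, hi, hil⟩ := hz
    rw [Walk.take_getVert, Walk.drop_getVert] at hi
    rw [Walk.take_length, Walk.drop_length] at hil
    exact ⟨p + (q - p) ⊓ i, by omega, by omega, hi.symm⟩

end Vale.Agent.P048
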