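import Vale.Agent.P048.CycList
import Vale.Agent.P048.MinDegStep

/-!
# P048: the graph-theoretic reduction

`Upper m (a+1)` follows from `Upper m' a` (all `m' ≥ 2a`), the path step lemma `PSL a` and
shortening statements for cycles longer than `m`.
-/

namespace Vale.Agent.P048

open SimpleGraph

/-- **Shortening with an outside independent set** `D(a,L)`: `Z` is a cycle on `L` vertices, `J` an
independent set of `a` vertices off `Z`, and `Z ∪ J` has no independent set of `a+1` vertices.
Then there is a cycle whose length lies in `[L0, L-1]`. -/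
def DShort (a L L0 : ℕ) : Prop :=
  ∀ (V : Type) (G : SimpleGraph V) (Z J : List V),
    (Z ++ J).Nodup → Z.length = L → J.length = a → CycL G Z →
    (∀ u ∈ J, ∀ v ∈ J, ¬ G.Adj u v) →
    (∀ s : Finset V, (∀ v ∈ s, v ∈ Z ++ J) → s.card = a + 1 → ∃ u ∈ s, ∃ v ∈ s, G.Adj u v) →
    ∃ Q : List V, CycL G Q ∧ L0 ≤ Q.length ∧ Q.length < L

section basics

variable {V : Type} {G : SimpleGraph V}

lemma exists_adj_of_not_hasIndep {a : ℕ} (hα : ¬ HasIndep G (a + 1)) (s : Finset V)
    (hs : s.card = a + 1) : ∃ u ∈ s, ∃ v ∈ s, G.Adj u v := by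
  by_contra h
  push Not at h
  apply hα
  refine ⟨s, ?_⟩
  rw [isNIndepSet_iff]
  exact ⟨fun u hu v hv _ => h u hu v hv, hs⟩

lemma hasCycle_of_induce_set (s : Set V) {k : ℕ} (h : HasCycle (G.induce s) k) :
    HasCycle G k := by
  obtain ⟨v, w, hw, hl⟩ := h
  have hinj : Function.Injective ((Embedding.induce (G := G) s).toHom) :=
    (Embedding.induce (G := G) s).injective
  refine ⟨_, w.map (Embedding.induce (G := G) s).toHom, ?_, ?_⟩
  · exact (Walk.isCycle_map_iff_of_injective hinj).2 hw
  · rw [Walk.length_map]; exact hl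

/-- An independent `a`-set off a given list of vertices, from `Upper m' a`. -/
lemma exists_indep_off [Fintype V] {m' a : ℕ} (hU : Upper m' a) (W : List V)
    (hcard : W.length + ((m' - 1) * (a - 1) + 1) ≤ Fintype.card V) :
    HasCycle G m' ∨ ∃ J : List V, J.Nodup ∧ J.length = a ∧ (∀ v ∈ J, v ∉ W) ∧
      ∀ u ∈ J, ∀ v ∈ J, ¬ G.Adj u v := by
  classical
  set S : Set V := {v | v ∉ W} with hS
  have hc : (m' - 1) * (a - 1) + 1 ≤ Fintype.card S := by
    have h1 : Fintype.card S = Fintype.card V - W.toFinset.card := by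
      have : Fintype.card S = (Finset.univ \ W.toFinset).card := by
        rw [← Set.toFinset_card]
        congr 1
        ext v
        simp [hS]
      rw [this, Finset.card_sdiff_of_subset (Finset.subset_univ _), Finset.card_univ]
    have h2 : W.toFinset.card ≤ W.length := List.toFinset_card_le W
    omega
  rcases hU S (G.induce S) hc with h | ⟨s, hs⟩
  · exact Or.inl (hasCycle_of_induce_set S h)
  · right
    rw [isNIndepSet_iff] at hs
    obtain ⟨hind, hcs⟩ := hs
    refine ⟨(s.toList).map Subtype.val, ?_, ?_, ?_, ?_⟩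
    · exact (Finset.nodup_toList s).map Subtype.val_injective
    · simp [hcs]
    · intro v hv
      rw [List.mem_map] at hv
      obtain ⟨x, _, rfl⟩ := hv
      exact x.2
    · intro u hu v hv huv
      rw [List.mem_map] at hu hv
      obtain ⟨x, hx, rfl⟩ := hu
      obtain ⟨y, hy, rfl⟩ := hv
      have hxy : x ≠ y := by
        rintro rfl
        exact G.loopless.irrefl _ huv
      exact hind (by simpa using hx) (by simpa using hy) hxy (by simpa using huv)

/-- Climbing step: a cycle of length `l`, `2a ≤ l < m`, gives a cycle of length `l+1`. -/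
lemma climb [Fintype V] {a m : ℕ} (ha : 1 ≤ a) (hU : Upper m a) (hP : PSL a)
    (hcard : (m - 1) * a + 1 ≤ Fintype.card V) (hα : ¬ HasIndep G (a + 1))
    (q : List V) (hq : CycL G q) (h1 : 2 * a ≤ q.length) (h2 : q.length < m) :
    HasCycle G m ∨ ∃ q', CycL G q' ∧ q'.length = q.length + 1 := by
  have hc : q.length + ((m - 1) * (a - 1) + 1) ≤ Fintype.card V := by
    obtain ⟨b, rfl⟩ : ∃ b, a = b + 1 := ⟨a - 1, by omega⟩
    simp only [Nat.add_sub_cancel]
    have : (m - 1) * (b + 1) = (m - 1) * b + (m - 1) := by ring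
    omega
  rcases exists_indep_off (G := G) hU q hc with h | ⟨J, hJn, hJl, hJq, hJi⟩
  · exact Or.inl h
  right
  obtain ⟨h3, hnd, hch, hclose⟩ := hq
  obtain ⟨P, R, hPR, hPl⟩ : ∃ P R : List V, P ++ R = q ∧ P.length = 2 * a :=
    ⟨q.take (2 * a), q.drop (2 * a), List.take_append_drop _ _, by simp [h1]⟩
  subst hPR
  rw [List.nodup_append] at hnd
  obtain ⟨hPn, hRn, hPRd⟩ := hnd
  rw [List.isChain_append] at hch
  obtain ⟨hPc, hRc, hj⟩ := hch
  have hPJ : (P ++ J).Nodup := by
    rw [List.nodup_append]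
    refine ⟨hPn, hJn, ?_⟩
    rintro x hx y hy rfl
    exact hJq x hy (List.mem_append_left _ hx)
  obtain ⟨Q, hQn, hQc, hQl, hQh, hQt, hQm⟩ := hP V G P J hPJ hPl hJl hPc hJi
    (fun s _ hs => exists_adj_of_not_hasIndep hα s hs)
  refine ⟨Q ++ R, ⟨?_, ?_, ?_, ?_⟩, ?_⟩
  · simp only [List.length_append] at h3 ⊢
    omega
  · rw [List.nodup_append]
    refine ⟨hQn, hRn, ?_⟩
    rintro x hx y hy rfl
    rcases List.mem_append.1 (hQm x hx) with h | h
    · exact hPRd x h x hy rfl
    · exact hJq x h (List.mem_append_right _ hy)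
  · rw [List.isChain_append]
    refine ⟨hQc, hRc, ?_⟩
    rw [hQt]
    exact hj
  · have e1 : (Q ++ R).head? = (P ++ R).head? := by
      rw [List.head?_append, List.head?_append, hQh]
    have e2 : (Q ++ R).getLast? = (P ++ R).getLast? := by
      rw [List.getLast?_append, List.getLast?_append, hQt]
    rw [e1, e2]
    exact hclose
  · simp only [List.length_append]
    omega

/-- split a list at the last element satisfying `p` -/
lemma exists_last_split {α : Type*} (p : α → Prop) :
    ∀ t : List α, (∃ x ∈ t, p x) → ∃ t1 w t2, t = t1 ++ w :: t2 ∧ p w ∧ ∀ x ∈ t2, ¬ p x := by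
  intro t
  induction t with
  | nil => rintro ⟨x, hx, _⟩; simp at hx
  | cons x t ih =>
    intro h
    by_cases h' : ∃ y ∈ t, p y
    · obtain ⟨t1, w, t2, rfl, hw, h2⟩ := ih h'
      exact ⟨x :: t1, w, t2, rfl, hw, h2⟩
    · push Not at h'
      obtain ⟨y, hy, hpy⟩ := h
      rcases List.mem_cons.1 hy with rfl | hy
      · exact ⟨[], y, t, rfl, hpy, h'⟩
      · exact absurd hpy (h' y hy)

/-- Minimum degree at least `m-1` forces a cycle of length at least `m`. -/
lemma exists_long_cycle [Fintype V] [Nonempty V] {m : ℕ} (hm : 3 ≤ m)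
    (hδ : ∀ v : V, m - 1 ≤ (G.neighborSet v).ncard) :
    ∃ q : List V, CycL G q ∧ m ≤ q.length := by
  classical
  obtain ⟨u, v, p, hp, hmax⟩ := Walk.exists_isPath_forall_isPath_length_le_length G
  have hmem : ∀ w, G.Adj u w → w ∈ p.support := by
    intro w hw
    by_contra hn
    have := hmax w v (Walk.cons hw.symm p) (hp.cons hn)
    simp at this
  obtain ⟨t, ht⟩ : ∃ t, p.support = u :: t := ⟨p.support.tail, (p.cons_tail_support).symm⟩
  have hnd : (u :: t).Nodup := ht ▸ hp.support_nodup
  have hch : (u :: t).IsChain G.Adj := ht ▸ p.isChain_adj_support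
  have hmem' : ∀ w, G.Adj u w → w ∈ t := by
    intro w hw
    have h1 := hmem w hw
    rw [ht] at h1
    rcases List.mem_cons.1 h1 with rfl | h1
    · exact absurd hw (G.loopless.irrefl _)
    · exact h1
  have hne : (G.neighborSet u).Nonempty := by
    rw [← Set.ncard_pos]
    have := hδ u
    omega
  obtain ⟨w0, hw0⟩ := hne
  obtain ⟨t1, w, t2, rfl, hw, h2⟩ := exists_last_split (fun x => G.Adj u x) t ⟨w0, hmem' w0 hw0, hw0⟩
  have hsub : G.neighborSet u ⊆ ((t1 ++ [w]).toFinset : Set V) := by
    intro x hx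
    have h1 := hmem' x hx
    simp only [List.mem_append, List.mem_cons] at h1
    simp only [List.coe_toFinset, Set.mem_ofPred_eq, List.mem_append, List.mem_singleton]
    rcases h1 with h1 | rfl | h1
    · exact Or.inl h1
    · exact Or.inr rfl
    · exact absurd hx (h2 x h1)
  have hcardle : (G.neighborSet u).ncard ≤ (t1 ++ [w]).length := by
    calc (G.neighborSet u).ncard ≤ ((t1 ++ [w]).toFinset : Set V).ncard :=
          Set.ncard_le_ncard hsub (Finset.finite_toSet _)
      _ = (t1 ++ [w]).toFinset.card := Set.ncard_coe_finset _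
      _ ≤ (t1 ++ [w]).length := List.toFinset_card_le _
  have hδu := hδ u
  have hsplit : u :: (t1 ++ w :: t2) = (u :: (t1 ++ [w])) ++ t2 := by simp
  rw [hsplit] at hnd hch
  refine ⟨u :: (t1 ++ [w]), ⟨?_, hnd.of_append_left, hch.left_of_append, ?_⟩, ?_⟩
  · simp only [List.length_cons] at hcardle ⊢
    omega
  · intro x hx y hy
    simp only [List.head?_cons, Option.mem_def, Option.some.injEq] at hx
    subst hx
    have : (u :: (t1 ++ [w])).getLast? = some w := by
      rw [← List.cons_append, List.getLast?_append]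
      simp
    rw [this] at hy
    simp only [Option.mem_def, Option.some.injEq] at hy
    subst hy
    exact hw.symm
  · simp only [List.length_cons] at hcardle ⊢
    omega

/-- Descent: a cycle of length at least `2a` gives a cycle whose length lies in `[2a, m]`. -/
lemma descend [Fintype V] {a m : ℕ} (ha : 1 ≤ a) (hm : 2 * a + 2 ≤ m) (hI : Upper (2 * a) a)
    (hS : ∀ L, m < L → ShortensAt a L (2 * a) ∨ (L ≤ 4 * a - 1 ∧ DShort a L (2 * a)))
    (hcard : (m - 1) * a + 1 ≤ Fintype.card V) (hα : ¬ HasIndep G (a + 1)) :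
    ∀ (L : ℕ) (q : List V), CycL G q → q.length = L → 2 * a ≤ L →
      ∃ q', CycL G q' ∧ 2 * a ≤ q'.length ∧ q'.length ≤ m := by
  intro L
  induction L using Nat.strong_induction_on with
  | _ L ih =>
    intro q hq hL h2a
    by_cases hLm : L ≤ m
    · exact ⟨q, hq, by omega, by omega⟩
    push Not at hLm
    have key : ∃ q1, CycL G q1 ∧ 2 * a ≤ q1.length ∧ q1.length < L := by
      rcases hS L hLm with h | ⟨hL4, hD⟩
      · obtain ⟨l, h1, h2, h3⟩ := h V G (hasCycle_iff_cycL.2 ⟨q, hq, hL⟩) hα
        obtain ⟨q1, hq1, hl1⟩ := hasCycle_iff_cycL.1 h3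
        exact ⟨q1, hq1, by omega, by omega⟩
      · have hc : q.length + ((2 * a - 1) * (a - 1) + 1) ≤ Fintype.card V := by
          obtain ⟨b, rfl⟩ : ∃ b, a = b + 1 := ⟨a - 1, by omega⟩
          have e0 : 2 * (b + 1) - 1 = 2 * b + 1 := by omega
          have e00 : b + 1 - 1 = b := by omega
          rw [e0, e00]
          have h1 : (2 * b + 3) * (b + 1) ≤ (m - 1) * (b + 1) :=
            Nat.mul_le_mul_right _ (by omega)
          have e1 : (2 * b + 3) * (b + 1) = 2 * (b * b) + 5 * b + 3 := by ring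
          have e2 : (2 * b + 1) * b = 2 * (b * b) + b := by ring
          rw [e1] at h1
          rw [e2]
          omega
        rcases exists_indep_off (G := G) hI q hc with h | ⟨J, hJn, hJl, hJq, hJi⟩
        · obtain ⟨q1, hq1, hl1⟩ := hasCycle_iff_cycL.1 h
          exact ⟨q1, hq1, by omega, by omega⟩
        · have hZJ : (q ++ J).Nodup := by
            rw [List.nodup_append]
            refine ⟨hq.2.1, hJn, ?_⟩
            rintro x hx y hy rfl
            exact hJq x hy hx
          exact hD V G q J hZJ hL hJl hq hJi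
            (fun s _ hs => exists_adj_of_not_hasIndep hα s hs)
    obtain ⟨q1, hq1, h1, h2⟩ := key
    exact ih q1.length h2 q1 hq1 rfl h1

/-- Iterated climbing. -/
lemma climb_to [Fintype V] {a m : ℕ} (ha : 1 ≤ a) (hU : Upper m a) (hP : PSL a)
    (hcard : (m - 1) * a + 1 ≤ Fintype.card V) (hα : ¬ HasIndep G (a + 1)) :
    ∀ (d : ℕ) (q : List V), CycL G q → 2 * a ≤ q.length → q.length + d = m → HasCycle G m := by
  intro d
  induction d with
  | zero =>
    intro q hq _ hl
    exact hasCycle_iff_cycL.2 ⟨q, hq, by omega⟩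
  | succ d ih =>
    intro q hq h1 hl
    rcases climb ha hU hP hcard hα q hq h1 (by omega) with h | ⟨q', hq', hl'⟩
    · exact h
    · exact ih q' hq' (by omega) (by omega)

end basics

/-- **Induction step.** -/
theorem upper_step (a m : ℕ) (ha : 1 ≤ a) (hm : 2 * a + 2 ≤ m)
    (hI : ∀ m', 2 * a ≤ m' → Upper m' a) (hP : PSL a)
    (hS : ∀ L, m < L → ShortensAt a L (2 * a) ∨ (L ≤ 4 * a - 1 ∧ DShort a L (2 * a))) :
    Upper m (a + 1) := by
  have hUm : Upper m a := hI m (by omega)
  apply upper_of_minDeg m (a + 1) (by omega) (by omega) (by simpa using hUm)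
  intro V _ G hcard hδ
  by_contra hcon
  push Not at hcon
  obtain ⟨hC, hα⟩ := hcon
  have hcard' : (m - 1) * a + 1 ≤ Fintype.card V := by simpa using hcard
  have : Nonempty V := Fintype.card_pos_iff.1 (by omega)
  obtain ⟨q, hq, hql⟩ := exists_long_cycle (G := G) (m := m) (by omega) hδ
  obtain ⟨q', hq', h1, h2⟩ :=
    descend ha hm (hI (2 * a) le_rfl) hS hcard' hα q.length q hq rfl (by omega)
  exact hC (climb_to ha hUm hP hcard' hα (m - q'.length) q' hq' h1 (by omega))

theorem upper_one (m : ℕ) : Upper m 1 := by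
  intro V _ G hcard
  right
  have : 0 < Fintype.card V := by omega
  obtain ⟨v⟩ := Fintype.card_pos_iff.1 this
  refine ⟨{v}, ?_⟩
  rw [isNIndepSet_iff]
  simp

/-- **Reduction theorem.**  The finite statements `PSL a` and the shortening statements for
`a ≤ A` imply the upper bound for all `n ≤ A + 1` and all `m ≥ 2n`. -/
theorem upper_of_finite (A : ℕ) (hP : ∀ a, 1 ≤ a → a ≤ A → PSL a)
    (hS : ∀ a, 1 ≤ a → a ≤ A → ∀ L, 2 * a + 3 ≤ L →
      ShortensAt a L (2 * a) ∨ (L ≤ 4 * a - 1 ∧ DShort a L (2 * a))) :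
    ∀ n, 1 ≤ n → n ≤ A + 1 → ∀ m, 2 * n ≤ m → Upper m n := by
  intro n
  induction n with
  | zero => intro h; omega
  | succ a ih =>
    intro _ hA m hm
    rcases Nat.eq_zero_or_pos a with rfl | ha
    · exact upper_one m
    · exact upper_step a m ha (by omega) (fun m' hm' => ih ha (by omega) m' hm')
        (hP a ha (by omega)) (fun L hL => hS a ha (by omega) L (by omega))

end Vale.Agent.P048
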