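import Vale.Agent.P048.GlueModel
import Vale.Agent.P048.Sat.ZSmall
import Vale.Agent.P048.Sat.Z6x15.Main
import Vale.Agent.P048.Sat.Z7x17.Main
import Vale.Agent.P048.Sat.Z7x18.Main

/-!
# P048: all shortening statements needed for `n ≤ 8`

`DShort a L (2a)` for `a ≤ 7` and `2a+3 ≤ L ≤ 4a-2`: thirty finite instances, each one refuted by a
clause proof that is checked in the kernel (`Sat/Z<a>x<L>`).  Only the four pairs a, L = 6,15 and 6,16 and 7,17 and
7,18 use the outside independent set.
-/

namespace Vale.Agent.P048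

theorem dshort_3_9 : DShort 3 9 6 :=
  dshort_of_noModel 3 9 0 6 256 (by norm_num) (by norm_num) (by norm_num)
    (fun A hA => Sat.Z3x9.unsat A hA)

theorem dshort_3_10 : DShort 3 10 6 :=
  dshort_of_noModel 3 10 0 6 256 (by norm_num) (by norm_num) (by norm_num)
    (fun A hA => Sat.Z3x10.unsat A hA)

theorem dshort_4_11 : DShort 4 11 8 :=
  dshort_of_noModel 4 11 0 8 256 (by norm_num) (by norm_num) (by norm_num)
    (fun A hA => Sat.Z4x11.unsat A hA)

theorem dshort_4_12 : DShort 4 12 8 :=
  dshort_of_noModel 4 12 0 8 256 (by norm_num) (by norm_num) (by norm_num)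
    (fun A hA => Sat.Z4x12.unsat A hA)

theorem dshort_4_13 : DShort 4 13 8 :=
  dshort_of_noModel 4 13 0 8 256 (by norm_num) (by norm_num) (by norm_num)
    (fun A hA => Sat.Z4x13.unsat A hA)

theorem dshort_4_14 : DShort 4 14 8 :=
  dshort_of_noModel 4 14 0 8 256 (by norm_num) (by norm_num) (by norm_num)
    (fun A hA => Sat.Z4x14.unsat A hA)

theorem dshort_5_13 : DShort 5 13 10 :=
  dshort_of_noModel 5 13 0 10 256 (by norm_num) (by norm_num) (by norm_num)
    (fun A hA => Sat.Z5x13.unsat A hA)

theorem dshort_5_14 : DShort 5 14 10 :=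
  dshort_of_noModel 5 14 0 10 256 (by norm_num) (by norm_num) (by norm_num)
    (fun A hA => Sat.Z5x14.unsat A hA)

theorem dshort_5_15 : DShort 5 15 10 :=
  dshort_of_noModel 5 15 0 10 256 (by norm_num) (by norm_num) (by norm_num)
    (fun A hA => Sat.Z5x15.unsat A hA)

theorem dshort_5_16 : DShort 5 16 10 :=
  dshort_of_noModel 5 16 0 10 256 (by norm_num) (by norm_num) (by norm_num)
    (fun A hA => Sat.Z5x16.unsat A hA)

theorem dshort_5_17 : DShort 5 17 10 :=
  dshort_of_noModel 5 17 0 10 256 (by norm_num) (by norm_num) (by norm_num)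
    (fun A hA => Sat.Z5x17.unsat A hA)

theorem dshort_5_18 : DShort 5 18 10 :=
  dshort_of_noModel 5 18 0 10 256 (by norm_num) (by norm_num) (by norm_num)
    (fun A hA => Sat.Z5x18.unsat A hA)

theorem dshort_6_15 : DShort 6 15 12 :=
  dshort_of_noModel 6 15 6 12 256 (by norm_num) (by norm_num) (by norm_num)
    (fun A hA => Sat.Z6x15.unsat A hA)

theorem dshort_6_16 : DShort 6 16 12 :=
  dshort_of_noModel 6 16 6 12 256 (by norm_num) (by norm_num) (by norm_num)
    (fun A hA => Sat.Z6x16.unsat A hA)

theorem dshort_6_17 : DShort 6 17 12 :=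
  dshort_of_noModel 6 17 0 12 256 (by norm_num) (by norm_num) (by norm_num)
    (fun A hA => Sat.Z6x17.unsat A hA)

theorem dshort_6_18 : DShort 6 18 12 :=
  dshort_of_noModel 6 18 0 12 256 (by norm_num) (by norm_num) (by norm_num)
    (fun A hA => Sat.Z6x18.unsat A hA)

theorem dshort_6_19 : DShort 6 19 12 :=
  dshort_of_noModel 6 19 0 12 256 (by norm_num) (by norm_num) (by norm_num)
    (fun A hA => Sat.Z6x19.unsat A hA)

theorem dshort_6_20 : DShort 6 20 12 :=
  dshort_of_noModel 6 20 0 12 256 (by norm_num) (by norm_num) (by norm_num)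
    (fun A hA => Sat.Z6x20.unsat A hA)

theorem dshort_6_21 : DShort 6 21 12 :=
  dshort_of_noModel 6 21 0 12 256 (by norm_num) (by norm_num) (by norm_num)
    (fun A hA => Sat.Z6x21.unsat A hA)

theorem dshort_6_22 : DShort 6 22 12 :=
  dshort_of_noModel 6 22 0 12 256 (by norm_num) (by norm_num) (by norm_num)
    (fun A hA => Sat.Z6x22.unsat A hA)

theorem dshort_7_17 : DShort 7 17 14 :=
  dshort_of_noModel 7 17 7 14 512 (by norm_num) (by norm_num) (by norm_num)
    (fun A hA => Sat.Z7x17.unsat A hA)

theorem dshort_7_18 : DShort 7 18 14 :=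
  dshort_of_noModel 7 18 7 14 512 (by norm_num) (by norm_num) (by norm_num)
    (fun A hA => Sat.Z7x18.unsat A hA)

theorem dshort_7_19 : DShort 7 19 14 :=
  dshort_of_noModel 7 19 0 14 256 (by norm_num) (by norm_num) (by norm_num)
    (fun A hA => Sat.Z7x19.unsat A hA)

theorem dshort_7_20 : DShort 7 20 14 :=
  dshort_of_noModel 7 20 0 14 256 (by norm_num) (by norm_num) (by norm_num)
    (fun A hA => Sat.Z7x20.unsat A hA)

theorem dshort_7_21 : DShort 7 21 14 :=
  dshort_of_noModel 7 21 0 14 256 (by norm_num) (by norm_num) (by norm_num)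
    (fun A hA => Sat.Z7x21.unsat A hA)

theorem dshort_7_22 : DShort 7 22 14 :=
  dshort_of_noModel 7 22 0 14 256 (by norm_num) (by norm_num) (by norm_num)
    (fun A hA => Sat.Z7x22.unsat A hA)

theorem dshort_7_23 : DShort 7 23 14 :=
  dshort_of_noModel 7 23 0 14 256 (by norm_num) (by norm_num) (by norm_num)
    (fun A hA => Sat.Z7x23.unsat A hA)

theorem dshort_7_24 : DShort 7 24 14 :=
  dshort_of_noModel 7 24 0 14 512 (by norm_num) (by norm_num) (by norm_num)
    (fun A hA => Sat.Z7x24.unsat A hA)

theorem dshort_7_25 : DShort 7 25 14 :=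
  dshort_of_noModel 7 25 0 14 512 (by norm_num) (by norm_num) (by norm_num)
    (fun A hA => Sat.Z7x25.unsat A hA)

theorem dshort_7_26 : DShort 7 26 14 :=
  dshort_of_noModel 7 26 0 14 512 (by norm_num) (by norm_num) (by norm_num)
    (fun A hA => Sat.Z7x26.unsat A hA)

/-- All shortening statements for `a ≤ 7`. -/
theorem dshort_all : ∀ a L, 1 ≤ a → a ≤ 7 → 2 * a + 3 ≤ L → L + 2 ≤ 4 * a → DShort a L (2 * a) := by
  intro a L h1 h7 hL1 hL2
  interval_cases a
  · omega
  · omega
  · have hU : L ≤ 10 := by omega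
    have hLo : 9 ≤ L := by omega
    interval_cases L
    · exact dshort_3_9
    · exact dshort_3_10
  · have hU : L ≤ 14 := by omega
    have hLo : 11 ≤ L := by omega
    interval_cases L
    · exact dshort_4_11
    · exact dshort_4_12
    · exact dshort_4_13
    · exact dshort_4_14
  · have hU : L ≤ 18 := by omega
    have hLo : 13 ≤ L := by omega
    interval_cases L
    · exact dshort_5_13
    · exact dshort_5_14
    · exact dshort_5_15
    · exact dshort_5_16
    · exact dshort_5_17
    · exact dshort_5_18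
  · have hU : L ≤ 22 := by omega
    have hLo : 15 ≤ L := by omega
    interval_cases L
    · exact dshort_6_15
    · exact dshort_6_16
    · exact dshort_6_17
    · exact dshort_6_18
    · exact dshort_6_19
    · exact dshort_6_20
    · exact dshort_6_21
    · exact dshort_6_22
  · have hU : L ≤ 26 := by omega
    have hLo : 17 ≤ L := by omega
    interval_cases L
    · exact dshort_7_17
    · exact dshort_7_18
    · exact dshort_7_19
    · exact dshort_7_20
    · exact dshort_7_21
    · exact dshort_7_22
    · exact dshort_7_23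
    · exact dshort_7_24
    · exact dshort_7_25
    · exact dshort_7_26

end Vale.Agent.P048
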